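import Vale.Agent.P184.Mods

/-! P184, module AMEN: elements of positive stable length with amenable centralizer. -/

namespace Vale.Agent.P184.AMEN

universe u v

variable {G : Type u} [Group G]

/-- the auxiliary function -/
noncomputable def ff (g : G) (L : G → ℝ) (K : ℝ) (p : G) : ℝ :=
  ⨅ n : ℤ, ((n : ℝ) + K * L (p * g ^ (-n)))

theorem low {g : G} {L : G → ℝ} (hL : IsLength L) {c : ℝ} (hc : 0 < c)
    (h : ∀ n : ℕ, c * n ≤ L (g ^ n)) (p : G) (n : ℤ) :
    -(1 / c * L p) ≤ (n : ℝ) + 1 / c * L (p * g ^ (-n)) := by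
  have h1 : c * |(n : ℝ)| ≤ L (g ^ (-n)) := by
    rcases Int.natAbs_eq n with hn | hn
    · have h2 := h n.natAbs
      have h3 : L (g ^ (-n)) = L (g ^ n.natAbs) := by
        rw [zpow_neg, hL.inv]
        conv_lhs => rw [hn]
        rw [zpow_natCast]
      have h4 : |(n : ℝ)| = (n.natAbs : ℝ) := by
        rw [Nat.cast_natAbs]
        push_cast
        rfl
      rw [h3, h4]
      exact h2
    · have h2 := h n.natAbs
      have h3 : L (g ^ (-n)) = L (g ^ n.natAbs) := by
        conv_lhs => rw [hn]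
        rw [neg_neg, zpow_natCast]
      have h4 : |(n : ℝ)| = (n.natAbs : ℝ) := by
        rw [Nat.cast_natAbs]
        push_cast
        rfl
      rw [h3, h4]
      exact h2
  have h2 : L (g ^ (-n)) ≤ L p + L (p * g ^ (-n)) := by
    have := hL.mul p⁻¹ (p * g ^ (-n))
    rw [inv_mul_cancel_left, hL.inv] at this
    exact this
  have h3 : |(n : ℝ)| ≤ 1 / c * L p + 1 / c * L (p * g ^ (-n)) := by
    have h4 : c * |(n : ℝ)| ≤ L p + L (p * g ^ (-n)) := h1.trans h2
    have h5 : 1 / c * (c * |(n : ℝ)|) ≤ 1 / c * (L p + L (p * g ^ (-n))) :=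
      mul_le_mul_of_nonneg_left h4 (by positivity)
    have h6 : 1 / c * (c * |(n : ℝ)|) = |(n : ℝ)| := by field_simp
    rw [h6] at h5
    linarith
  have h4 := neg_abs_le (n : ℝ)
  linarith

theorem bdd {g : G} {L : G → ℝ} (hL : IsLength L) {c : ℝ} (hc : 0 < c)
    (h : ∀ n : ℕ, c * n ≤ L (g ^ n)) (p : G) :
    BddBelow (Set.range fun n : ℤ => (n : ℝ) + 1 / c * L (p * g ^ (-n))) :=
  ⟨-(1 / c * L p), by rintro _ ⟨n, rfl⟩; exact low hL hc h p n⟩

theorem ff_right {g : G} {L : G → ℝ} (hL : IsLength L) {c : ℝ} (hc : 0 < c)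
    (h : ∀ n : ℕ, c * n ≤ L (g ^ n)) (p : G) : ff g L (1 / c) (p * g) = ff g L (1 / c) p + 1 := by
  unfold ff
  have key : ∀ n : ℤ, p * g * g ^ (-(n + 1)) = p * g ^ (-n) := by
    intro n
    rw [mul_assoc]
    congr 1
    rw [← zpow_one_add]
    congr 1
    ring
  refine le_antisymm ?_ ?_
  · rw [← sub_le_iff_le_add]
    refine le_ciInf fun n => ?_
    rw [sub_le_iff_le_add]
    have h1 := ciInf_le (bdd hL hc h (p * g)) (n + 1)
    simp only [key n] at h1
    push_cast at h1
    linarith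
  · refine le_ciInf fun n => ?_
    have h1 := ciInf_le (bdd hL hc h p) (n - 1)
    have h2 := key (n - 1)
    rw [sub_add_cancel] at h2
    rw [h2]
    push_cast at h1
    linarith

theorem ff_left {g : G} {L : G → ℝ} (hL : IsLength L) {c : ℝ} (hc : 0 < c)
    (h : ∀ n : ℕ, c * n ≤ L (g ^ n)) (x p : G) :
    ff g L (1 / c) (x * p) ≤ ff g L (1 / c) p + 1 / c * L x := by
  rw [← sub_le_iff_le_add]
  refine le_ciInf fun n => ?_
  rw [sub_le_iff_le_add]
  have h1 := ciInf_le (bdd hL hc h (x * p)) n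
  have h2 : L (x * p * g ^ (-n)) ≤ L x + L (p * g ^ (-n)) := by
    rw [mul_assoc]
    exact hL.mul _ _
  have h3 : 1 / c * L (x * p * g ^ (-n)) ≤ 1 / c * (L x + L (p * g ^ (-n))) :=
    mul_le_mul_of_nonneg_left h2 (by positivity)
  unfold ff
  linarith

theorem ff_abs {g : G} {L : G → ℝ} (hL : IsLength L) {c : ℝ} (hc : 0 < c)
    (h : ∀ n : ℕ, c * n ≤ L (g ^ n)) (x p : G) :
    |ff g L (1 / c) (x * p) - ff g L (1 / c) p| ≤ 1 / c * L x := by
  rw [abs_le]
  constructor
  · have := ff_left hL hc h x⁻¹ (x * p)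
    rw [inv_mul_cancel_left, hL.inv] at this
    linarith
  · have := ff_left hL hc h x p
    linarith

theorem amen_proof : AMEN.{u} := by
  intro G _ g L hL hc hA
  obtain ⟨c, hc, h⟩ := hc
  obtain ⟨m, madd, mmul, mpos, mone, minv⟩ := hA
  have hbd : ∀ x : G, Bdd fun p : Subgroup.centralizer ({g} : Set G) =>
      ff g L (1 / c) (x * p) - ff g L (1 / c) p := fun x =>
    ⟨1 / c * L x, fun p => ff_abs hL hc h x p⟩
  have hconst : ∀ B : ℝ, Bdd fun _ : Subgroup.centralizer ({g} : Set G) => B := fun B =>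
    ⟨|B|, fun _ => le_rfl⟩
  refine ⟨fun x => 1 / c * L x,
    fun x => m fun p : Subgroup.centralizer ({g} : Set G) =>
      ff g L (1 / c) (x * p) - ff g L (1 / c) p, 0, ⟨?_, ?_, ?_⟩, ?_, ?_, ?_⟩
  · intro x
    exact mul_nonneg (by positivity) (hL.nonneg x)
  · intro x
    change 1 / c * L x⁻¹ = 1 / c * L x
    rw [hL.inv]
  · intro x y
    change 1 / c * L (x * y) ≤ 1 / c * L x + 1 / c * L y
    rw [← mul_add]
    exact mul_le_mul_of_nonneg_left (hL.mul x y) (by positivity)
  · intro k k' _ hk'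
    have hmem : k' ∈ Subgroup.centralizer ({g} : Set G) := by
      rw [Subgroup.mem_centralizer_iff]
      intro y hy
      rw [Set.mem_singleton_iff] at hy
      rw [hy]
      exact hk'.eq.symm
    have h1 := minv (⟨k', hmem⟩ : Subgroup.centralizer ({g} : Set G))⁻¹
      (fun p => ff g L (1 / c) (k * p) - ff g L (1 / c) p) (hbd k)
    rw [inv_inv] at h1
    have hb2 : Bdd fun p : Subgroup.centralizer ({g} : Set G) =>
        ff g L (1 / c) (k * ((⟨k', hmem⟩ * p : Subgroup.centralizer ({g} : Set G)) : G)) -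
          ff g L (1 / c) ((⟨k', hmem⟩ * p : Subgroup.centralizer ({g} : Set G)) : G) :=
      ⟨1 / c * L k, fun p => ff_abs hL hc h k _⟩
    have h2 := madd _ _ hb2 (hbd k')
    rw [h1] at h2
    rw [← h2]
    change m (fun p : Subgroup.centralizer ({g} : Set G) =>
      ff g L (1 / c) (k * k' * p) - ff g L (1 / c) p) = _
    congr 1
    funext p
    have e1 : ((⟨k', hmem⟩ * p : Subgroup.centralizer ({g} : Set G)) : G) = k' * (p : G) := rfl
    rw [e1, ← mul_assoc]
    ring
  · intro k _
    have h1 : 0 ≤ m fun p : Subgroup.centralizer ({g} : Set G) =>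
        1 / c * L k * (fun _ : Subgroup.centralizer ({g} : Set G) => (1 : ℝ)) p +
          (-1) * (ff g L (1 / c) (k * p) - ff g L (1 / c) p) := by
      refine mpos _ ?_ ?_
      · refine ⟨2 * (1 / c * L k), fun p => ?_⟩
        have h2 := ff_abs hL hc h k p
        rw [abs_le] at h2 ⊢
        constructor <;> linarith
      · intro p
        have h2 := (abs_le.1 (ff_abs hL hc h k p)).2
        linarith
    have h3 : Bdd fun p : Subgroup.centralizer ({g} : Set G) =>
        1 / c * L k * (fun _ : Subgroup.centralizer ({g} : Set G) => (1 : ℝ)) p :=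
      ⟨|1 / c * L k|, fun p => by simp⟩
    have h4 : Bdd fun p : Subgroup.centralizer ({g} : Set G) =>
        (-1 : ℝ) * (ff g L (1 / c) (k * p) - ff g L (1 / c) p) :=
      ⟨1 / c * L k, fun p => by
        have h5 := ff_abs hL hc h k p
        rw [abs_le] at h5 ⊢
        constructor <;> linarith⟩
    rw [madd _ _ h3 h4, mmul _ _ (hbd k), mmul _ _ (hconst 1), mone] at h1
    change m (fun p : Subgroup.centralizer ({g} : Set G) =>
      ff g L (1 / c) (k * p) - ff g L (1 / c) p) ≤ 0 + 1 / c * L k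
    linarith
  · have e : (fun p : Subgroup.centralizer ({g} : Set G) =>
        ff g L (1 / c) (g * p) - ff g L (1 / c) p) = fun _ => 1 := by
      funext p
      have hp : g * (p : G) = p * g := by
        have := p.2
        rw [Subgroup.mem_centralizer_iff] at this
        exact this g rfl
      rw [hp, ff_right hL hc h]
      ring
    change m (fun p : Subgroup.centralizer ({g} : Set G) =>
        ff g L (1 / c) (g * p) - ff g L (1 / c) p) ≠ 0
    rw [e, mone]
    norm_num

end Vale.Agent.P184.AMEN
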