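import Vale.Agent.P184.Mods

/-! P184, module ABSVAL: an absolute value on an algebraically closed overfield. -/

namespace Vale.Agent.P184.AbsVal

open Vale.Agent.P184

universe v

/-- extension of a nonarchimedean absolute value to an algebraically closed field -/
theorem exists_ext {F : Type v} [Field F] (w : AbsoluteValue F ℝ)
    (hna : ∀ x y, w (x + y) ≤ max (w x) (w y)) (hnt : ∃ x, 1 < w x) :
    ∃ (Ω : Type v) (_ : Field Ω) (_ : IsAlgClosed Ω) (a : AbsoluteValue Ω ℝ) (j : F →+* Ω),
      ∀ x, a (j x) = w x := by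
  have hU0 : IsUltrametricDist (WithAbs w) := by
    apply IsUltrametricDist.isUltrametricDist_of_isNonarchimedean_norm
    intro x y
    exact hna (WithAbs.ofAbs x) (WithAbs.ofAbs y)
  have hU : IsUltrametricDist w.Completion := by
    constructor
    intro x y z
    induction x, y, z using UniformSpace.Completion.induction_on₃ with
    | hp =>
      apply isClosed_le
      · fun_prop
      · fun_prop
    | ih a b c =>
      rw [UniformSpace.Completion.dist_eq, UniformSpace.Completion.dist_eq,
        UniformSpace.Completion.dist_eq]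
      exact dist_triangle_max a b c
  obtain ⟨x₀, hx₀⟩ := hnt
  have hnorm : ∀ x : F, ‖((WithAbs.toAbs w x : WithAbs w) : w.Completion)‖ = w x := by
    intro x
    rw [UniformSpace.Completion.norm_coe]
    rfl
  let _ : NontriviallyNormedField w.Completion :=
    { (inferInstance : NormedField w.Completion) with
      non_trivial := ⟨_, by rw [hnorm x₀]; exact hx₀⟩ }
  refine ⟨AlgebraicClosure w.Completion, inferInstance, inferInstance,
    { toFun := spectralNorm w.Completion (AlgebraicClosure w.Completion)
      map_mul' := fun x y => ?_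
      nonneg' := fun x => ?_
      eq_zero' := fun x => ?_
      add_le' := fun x y => ?_ },
    (algebraMap w.Completion (AlgebraicClosure w.Completion)).comp
      (UniformSpace.Completion.coeRingHom.comp (WithAbs.equiv w).symm.toRingHom), fun x => ?_⟩
  · exact map_mul (spectralMulAlgNorm w.Completion (AlgebraicClosure w.Completion)) x y
  · exact spectralNorm_nonneg x
  · exact map_eq_zero_iff_eq_zero (spectralMulAlgNorm w.Completion (AlgebraicClosure w.Completion))
  · exact map_add_le_add (spectralMulAlgNorm w.Completion (AlgebraicClosure w.Completion)) x y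
  · exact (spectralNorm_extends _).trans (hnorm x)

open RatFunc in
/-- the degree absolute value of a rational function field -/
theorem exists_deg (k : Type v) [Field k] :
    ∃ w : AbsoluteValue (RatFunc k) ℝ, (∀ x y, w (x + y) ≤ max (w x) (w y)) ∧ w RatFunc.X = 2 := by
  classical
  let f : RatFunc k → ℝ := fun r => if r = 0 then 0 else (2 : ℝ) ^ (r.intDegree)
  have f0 : f 0 = 0 := if_pos rfl
  have f1 : ∀ r, r ≠ 0 → f r = (2 : ℝ) ^ (r.intDegree) := fun r hr => if_neg hr
  have fnn : ∀ r, 0 ≤ f r := by
    intro r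
    by_cases hr : r = 0
    · rw [hr, f0]
    · rw [f1 r hr]; positivity
  have hna : ∀ x y, f (x + y) ≤ max (f x) (f y) := by
    intro x y
    by_cases hy : y = 0
    · rw [hy, add_zero]; exact le_max_left _ _
    by_cases hx : x = 0
    · rw [hx, zero_add]; exact le_max_right _ _
    by_cases hxy : x + y = 0
    · rw [hxy, f0]; exact (fnn x).trans (le_max_left _ _)
    rw [f1 _ hx, f1 _ hy, f1 _ hxy]
    have h := intDegree_add_le hy hxy
    rcases le_max_iff.1 h with h | h
    · exact (zpow_le_zpow_right₀ (by norm_num) h).trans (le_max_left _ _)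
    · exact (zpow_le_zpow_right₀ (by norm_num) h).trans (le_max_right _ _)
  refine ⟨{ toFun := f, map_mul' := ?_, nonneg' := fnn, eq_zero' := ?_, add_le' := ?_ }, hna, ?_⟩
  · intro x y
    by_cases hx : x = 0
    · rw [hx, zero_mul, f0, zero_mul]
    by_cases hy : y = 0
    · rw [hy, mul_zero, f0, mul_zero]
    rw [f1 _ hx, f1 _ hy, f1 _ (mul_ne_zero hx hy), intDegree_mul hx hy,
      zpow_add₀ (by norm_num : (2 : ℝ) ≠ 0)]
  · intro x
    constructor
    · intro h
      by_contra hx
      rw [f1 x hx] at h
      have : (0 : ℝ) < 2 ^ (x.intDegree) := by positivity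
      linarith
    · rintro rfl; exact f0
  · intro x y
    exact (hna x y).trans (max_le_add_of_nonneg (fnn x) (fnn y))
  · change f RatFunc.X = 2
    rw [f1 _ RatFunc.X_ne_zero, intDegree_X, zpow_one]

/-- an element that is not a root of unity is transcendental over the prime field -/
theorem trans_of {p : ℕ} [Fact p.Prime] {K : Type v} [Field K] [Algebra (ZMod p) K] {μ : K}
    (h0 : μ ≠ 0) (h : ∀ m : ℕ, 0 < m → μ ^ m ≠ 1) : Transcendental (ZMod p) μ := by
  intro halg
  have hfd : FiniteDimensional (ZMod p) (IntermediateField.adjoin (ZMod p) ({μ} : Set K)) :=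
    IntermediateField.adjoin.finiteDimensional halg.isIntegral
  have hfin : Finite (IntermediateField.adjoin (ZMod p) ({μ} : Set K)) :=
    Module.finite_of_finite (ZMod p)
  let μ' : IntermediateField.adjoin (ZMod p) ({μ} : Set K) :=
    ⟨μ, IntermediateField.mem_adjoin_simple_self _ _⟩
  have hμ' : μ' ≠ 0 := fun h => h0 (congrArg Subtype.val h)
  have h1 : IsOfFinOrder (Units.mk0 μ' hμ') := isOfFinOrder_of_finite _
  obtain ⟨m, hm, hm1⟩ := isOfFinOrder_iff_pow_eq_one.1 h1
  apply h m hm
  have h2 := congrArg (fun u : (IntermediateField.adjoin (ZMod p) ({μ} : Set K))ˣ =>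
    ((u : IntermediateField.adjoin (ZMod p) ({μ} : Set K)) : K)) hm1
  simpa using h2

/-- algebraicity over a field whose image contains the given subfield -/
theorem alg_of {F K L : Type*} [Field F] [Field K] [Field L] [Algebra F K]
    (E : IntermediateField F K) (z : K) (hz : IsAlgebraic E z) (φ : L →+* K)
    (hφ : ∀ y ∈ E, ∃ l, φ l = y) :
    ∃ q : Polynomial L, q ≠ 0 ∧ q.eval₂ φ z = 0 := by
  obtain ⟨p, hp0, hp⟩ := hz
  choose g hg using fun y : E => hφ y.1 y.2
  let ψ : E →+* L :=
    { toFun := g
      map_one' := φ.injective (by rw [hg]; simp)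
      map_mul' := fun x y => φ.injective (by rw [hg, map_mul, hg, hg]; rfl)
      map_zero' := φ.injective (by rw [hg]; simp)
      map_add' := fun x y => φ.injective (by rw [hg, map_add, hg, hg]; rfl) }
  refine ⟨p.map ψ, ?_, ?_⟩
  · rwa [Ne, Polynomial.map_eq_zero]
  · rw [Polynomial.eval₂_map]
    have : φ.comp ψ = algebraMap E K := RingHom.ext fun y => hg y
    rw [this]
    exact hp

theorem exists_emb {F : Type} [Field F] {K : Type v} [Field K] [Algebra F K] {μ : K}
    (hμ : Transcendental F μ) :
    ∃ (k : Type v) (_ : Field k) (φ : RatFunc k →+* K), φ RatFunc.X = μ ∧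
      ∀ z : K, ∃ q : Polynomial (RatFunc k), q ≠ 0 ∧ q.eval₂ φ z = 0 := by
  have h1 : AlgebraicIndepOn F id ({μ} : Set K) := by
    rw [AlgebraicIndepOn, algebraicIndependent_singleton_iff (⟨μ, rfl⟩ : ({μ} : Set K))]
    exact hμ
  obtain ⟨t, hst, ht⟩ := exists_isTranscendenceBasis_superset h1
  have hμt : μ ∈ t := hst rfl
  have himg : (Subtype.val '' {x : t | (x : K) ≠ μ}) = t \ {μ} := by
    ext x
    constructor
    · rintro ⟨y, hy, rfl⟩
      exact ⟨y.2, hy⟩
    · rintro ⟨h, h'⟩
      exact ⟨⟨x, h⟩, h', rfl⟩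
  have htr : Transcendental (IntermediateField.adjoin F (t \ {μ})) μ := by
    rw [IntermediateField.transcendental_adjoin_iff, ← himg]
    exact ht.1.transcendental_adjoin (s := {x : t | (x : K) ≠ μ}) (i := ⟨μ, hμt⟩) (by simp)
  let k := IntermediateField.adjoin F (t \ {μ})
  have hinj : Function.Injective (Polynomial.aeval μ : Polynomial k →ₐ[k] K) :=
    transcendental_iff_injective.1 htr
  let φ : RatFunc k →+* K :=
    IsFractionRing.lift (A := Polynomial k) (g := (Polynomial.aeval μ : Polynomial k →ₐ[k] K).toRingHom)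
      hinj
  have hφ : ∀ P : Polynomial k, φ (algebraMap (Polynomial k) (RatFunc k) P) = Polynomial.aeval μ P :=
    fun P => IsFractionRing.lift_algebraMap _ _
  refine ⟨k, inferInstance, φ, ?_, ?_⟩
  · rw [← RatFunc.algebraMap_X, hφ, Polynomial.aeval_X]
  · intro z
    have h3 := ht.isAlgebraic_field
    rw [Subtype.range_coe] at h3
    refine alg_of (IntermediateField.adjoin F t) z (h3.isAlgebraic z) φ ?_
    have hF : ∀ r : F, algebraMap F K r ∈ φ.fieldRange := by
      intro r
      refine ⟨algebraMap (Polynomial k) (RatFunc k) (Polynomial.C (algebraMap F k r)), ?_⟩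
      rw [hφ, Polynomial.aeval_C]
      rfl
    have hle : IntermediateField.adjoin F t ≤ φ.fieldRange.toIntermediateField hF := by
      rw [IntermediateField.adjoin_le_iff]
      intro x hx
      by_cases hxμ : x = μ
      · refine ⟨RatFunc.X, ?_⟩
        rw [← RatFunc.algebraMap_X, hφ, Polynomial.aeval_X, hxμ]
      · have hxk : x ∈ k := IntermediateField.subset_adjoin F _ ⟨hx, hxμ⟩
        refine ⟨algebraMap (Polynomial k) (RatFunc k) (Polynomial.C (⟨x, hxk⟩ : k)), ?_⟩
        rw [hφ, Polynomial.aeval_C]
        rfl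
    intro y hy
    exact hle hy

theorem x_proof : ABSVAL.{v} := by
  intro p _ K _ _ μ h0 h
  let _ : Algebra (ZMod p) K := ZMod.algebra K p
  obtain ⟨k, _, φ, hX, halg⟩ := exists_emb (trans_of (p := p) h0 h)
  obtain ⟨w, hna, hw⟩ := exists_deg k
  obtain ⟨Ω, _, _, a, j, ha⟩ := exists_ext w hna ⟨RatFunc.X, by rw [hw]; norm_num⟩
  let _ : Algebra (RatFunc k) K := φ.toAlgebra
  let _ : Algebra (RatFunc k) Ω := j.toAlgebra
  have hA : Algebra.IsAlgebraic (RatFunc k) K := ⟨fun z => halg z⟩
  let ι : K →ₐ[RatFunc k] Ω := IsAlgClosed.lift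
  refine ⟨Ω, inferInstance, a, ι.toRingHom, ?_⟩
  have h1 : ι μ = j RatFunc.X := by
    rw [← hX]
    exact ι.commutes RatFunc.X
  change a (ι μ) ≠ 1
  rw [h1, ha, hw]
  norm_num

end Vale.Agent.P184.AbsVal
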