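import Vale.Agent.P184.Mods2
import Vale.Agent.P184.AbsVal

/-!
P184 (helper13), N2: absolute values on countable fields of characteristic zero.
-/

namespace Vale.Agent.P184.AQ

open Vale.Agent.P184 Cardinal

universe u v w

/-- A countable extension of `k` embeds over `k` into every uncountable algebraically closed
extension of `k`. -/
theorem exists_lift {k : Type u} {K : Type v} {Ω : Type w} [Field k] [Field K] [Field Ω]
    [Algebra k K] [Algebra k Ω] [IsAlgClosed Ω] [Countable K] (hΩ : Uncountable Ω) :
    Nonempty (K →ₐ[k] Ω) := by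
  have hk : Countable k := (algebraMap k K).injective.countable
  obtain ⟨s, hs⟩ := exists_isTranscendenceBasis k K
  obtain ⟨t, ht⟩ := exists_isTranscendenceBasis k Ω
  have hunc : ℵ₀ < #Ω := Cardinal.aleph0_lt_mk_iff.2 hΩ
  have hcard := IsAlgClosed.cardinal_eq_cardinal_transcendence_basis_of_aleph0_lt
    (Subtype.val : t → Ω) ht (Cardinal.mk_le_aleph0_iff.2 hk) hunc
  have ht1 : ℵ₀ < #t := by
    have := Cardinal.lift_injective hcard
    rw [← this]
    exact hunc
  have hle : Cardinal.lift.{w} #s ≤ Cardinal.lift.{v} #t := by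
    have h1 : Cardinal.lift.{w} #s ≤ ℵ₀ := by
      rw [Cardinal.lift_le_aleph0, Cardinal.mk_le_aleph0_iff]
      infer_instance
    have h2 : ℵ₀ ≤ Cardinal.lift.{v} #t := by
      rw [Cardinal.aleph0_le_lift]
      exact ht1.le
    exact h1.trans h2
  obtain ⟨f⟩ := Cardinal.lift_mk_le'.1 hle
  have hv : AlgebraicIndependent k (fun x : s => ((f x : t) : Ω)) := ht.1.comp f f.injective
  let R := Algebra.adjoin k (Set.range (Subtype.val : s → K))
  let φ : R →ₐ[k] Ω := (MvPolynomial.aeval (fun x : s => ((f x : t) : Ω))).comp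
    (hs.1.aevalEquiv.symm.toAlgHom)
  have hφ : Function.Injective φ := by
    intro a b hab
    have h1 := hv hab
    exact hs.1.aevalEquiv.symm.injective h1
  let _ : Algebra R Ω := φ.toRingHom.toAlgebra
  have hf1 : FaithfulSMul R Ω := (faithfulSMul_iff_algebraMap_injective R Ω).2 hφ
  have hf2 : FaithfulSMul R K := (faithfulSMul_iff_algebraMap_injective R K).2
    Subtype.val_injective
  have hA : Algebra.IsAlgebraic R K := hs.isAlgebraic
  let ι : K →ₐ[R] Ω := IsAlgClosed.lift
  refine ⟨{ ι.toRingHom with commutes' := ?_ }⟩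
  intro c
  have h1 : ι (algebraMap R K (algebraMap k R c)) = algebraMap R Ω (algebraMap k R c) :=
    ι.commutes _
  have h2 : algebraMap R Ω (algebraMap k R c) = algebraMap k Ω c := φ.commutes c
  rw [← h2, ← h1]
  rfl

/-- Extension of a nonarchimedean absolute value to an uncountable algebraically closed field. -/
theorem exists_ext_unc {F : Type v} [Field F] (w : AbsoluteValue F ℝ)
    (hna : ∀ x y, w (x + y) ≤ max (w x) (w y)) (hnt : ∃ x, 1 < w x) :
    ∃ (Ω : Type v) (_ : Field Ω) (_ : IsAlgClosed Ω) (_ : Uncountable Ω)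
      (a : AbsoluteValue Ω ℝ) (j : F →+* Ω), ∀ x, a (j x) = w x := by
  have hU0 : IsUltrametricDist (WithAbs w) := by
    apply IsUltrametricDist.isUltrametricDist_of_isNonarchimedean_norm
    intro x y
    exact hna (WithAbs.ofAbs x) (WithAbs.ofAbs y)
  have hU : IsUltrametricDist w.Completion := by
    constructor
    intro x y z
    induction x, y, z using UniformSpace.Completion.induction_on₃ with
    | hp =>
      apply isClosed_le
      · fun_prop
      · fun_prop
    | ih a b c =>
      rw [UniformSpace.Completion.dist_eq, UniformSpace.Completion.dist_eq,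
        UniformSpace.Completion.dist_eq]
      exact dist_triangle_max a b c
  obtain ⟨x₀, hx₀⟩ := hnt
  have hnorm : ∀ x : F, ‖((WithAbs.toAbs w x : WithAbs w) : w.Completion)‖ = w x := by
    intro x
    rw [UniformSpace.Completion.norm_coe]
    rfl
  let _ : NontriviallyNormedField w.Completion :=
    { (inferInstance : NormedField w.Completion) with
      non_trivial := ⟨_, by rw [hnorm x₀]; exact hx₀⟩ }
  have hunc : Uncountable (AlgebraicClosure w.Completion) := by
    have h1 : 𝔠 ≤ #w.Completion := continuum_le_cardinal_of_nontriviallyNormedField w.Completion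
    have h2 : Uncountable w.Completion :=
      Cardinal.aleph0_lt_mk_iff.1 (Cardinal.aleph0_lt_continuum.trans_le h1)
    exact (algebraMap w.Completion (AlgebraicClosure w.Completion)).injective.uncountable
  refine ⟨AlgebraicClosure w.Completion, inferInstance, inferInstance, hunc,
    { toFun := spectralNorm w.Completion (AlgebraicClosure w.Completion)
      map_mul' := fun x y => ?_
      nonneg' := fun x => ?_
      eq_zero' := fun x => ?_
      add_le' := fun x y => ?_ },
    (algebraMap w.Completion (AlgebraicClosure w.Completion)).comp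
      (UniformSpace.Completion.coeRingHom.comp (WithAbs.equiv w).symm.toRingHom), fun x => ?_⟩
  · exact map_mul (spectralMulAlgNorm w.Completion (AlgebraicClosure w.Completion)) x y
  · exact spectralNorm_nonneg x
  · exact map_eq_zero_iff_eq_zero (spectralMulAlgNorm w.Completion (AlgebraicClosure w.Completion))
  · exact map_add_le_add (spectralMulAlgNorm w.Completion (AlgebraicClosure w.Completion)) x y
  · exact (spectralNorm_extends _).trans (hnorm x)

/-- Countable extensions of number fields. -/
theorem numfield {k : Type v} [Field k] [NumberField k] {K : Type v} [Field K] [Algebra k K]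
    [Countable K] (x : k) (h : ∀ m : ℕ, 0 < m → x ^ m ≠ 1) :
    ∃ a : AbsoluteValue K ℝ, a (algebraMap k K x) ≠ 1 := by
  by_cases hx : IsIntegral ℤ x
  · have h1 : ∃ φ : k →+* ℂ, ‖φ x‖ ≠ 1 := by
      by_contra hcon
      push Not at hcon
      obtain ⟨n, hn, hn1⟩ := NumberField.Embeddings.pow_eq_one_of_norm_eq_one k ℂ hx hcon
      exact h n hn hn1
    obtain ⟨φ, hφ⟩ := h1
    let _ : Algebra k ℂ := φ.toAlgebra
    have hunc : Uncountable ℂ :=
      Cardinal.aleph0_lt_mk_iff.1 (by rw [Cardinal.mk_complex]; exact Cardinal.aleph0_lt_continuum)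
    obtain ⟨ι⟩ := exists_lift (k := k) (K := K) (Ω := ℂ) hunc
    refine ⟨(NormedField.toAbsoluteValue ℂ).comp (f := ι.toRingHom) ι.toRingHom.injective, ?_⟩
    have h2 : ι (algebraMap k K x) = φ x := ι.commutes x
    show ‖ι (algebraMap k K x)‖ ≠ 1
    rw [h2]
    exact hφ
  · have h1 : ∃ v : IsDedekindDomain.HeightOneSpectrum (NumberField.RingOfIntegers k),
        1 < v.valuation k x := by
      by_contra hcon
      push Not at hcon
      obtain ⟨y, hy⟩ :=
        IsDedekindDomain.HeightOneSpectrum.mem_integers_of_valuation_le_one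
          (R := NumberField.RingOfIntegers k) (K := k) x hcon
      apply hx
      rw [← hy]
      exact y.isIntegral_coe
    obtain ⟨v, hv⟩ := h1
    set w : AbsoluteValue k ℝ := NumberField.HeightOneSpectrum.adicAbv k v with hw
    have hwx : 1 < w x := by
      rw [hw, NumberField.HeightOneSpectrum.adicAbv_def]
      have h2 := WithZeroMulInt.toNNReal_strictMono
        (NumberField.HeightOneSpectrum.one_lt_absNorm_nnreal v) hv
      rw [map_one] at h2
      exact_mod_cast h2
    obtain ⟨Ω, _, _, hunc, a, j, hj⟩ := exists_ext_unc w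
      (NumberField.HeightOneSpectrum.adicAbv_add_le_max k v) ⟨x, hwx⟩
    let _ : Algebra k Ω := j.toAlgebra
    obtain ⟨ι⟩ := exists_lift (k := k) (K := K) (Ω := Ω) hunc
    refine ⟨a.comp (f := ι.toRingHom) ι.toRingHom.injective, ?_⟩
    have h2 : ι (algebraMap k K x) = j x := ι.commutes x
    show a (ι (algebraMap k K x)) ≠ 1
    rw [h2, hj]
    exact hwx.ne'

theorem absq_proof : ABSQ.{v} := by
  intro K _ _ _ μ h0 h
  by_cases hμ : IsAlgebraic ℚ μ
  · let E := IntermediateField.adjoin ℚ ({μ} : Set K)
    have hfd : FiniteDimensional ℚ E :=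
      IntermediateField.adjoin.finiteDimensional hμ.isIntegral
    have hnf : NumberField E := ⟨⟩
    obtain ⟨a, ha⟩ := numfield (k := E) (K := K)
      ⟨μ, IntermediateField.mem_adjoin_simple_self _ _⟩ (by
        intro m hm h1
        apply h m hm
        exact congrArg (algebraMap E K) h1)
    exact ⟨a, ha⟩
  · obtain ⟨k, _, φ, hX, halg⟩ := AbsVal.exists_emb (F := ℚ) hμ
    obtain ⟨w, hna, hw⟩ := AbsVal.exists_deg k
    obtain ⟨Ω, _, _, a, j, ha⟩ := AbsVal.exists_ext w hna ⟨RatFunc.X, by rw [hw]; norm_num⟩
    let _ : Algebra (RatFunc k) K := φ.toAlgebra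
    let _ : Algebra (RatFunc k) Ω := j.toAlgebra
    have hA : Algebra.IsAlgebraic (RatFunc k) K := ⟨fun z => halg z⟩
    let ι : K →ₐ[RatFunc k] Ω := IsAlgClosed.lift
    refine ⟨a.comp (f := ι.toRingHom) ι.toRingHom.injective, ?_⟩
    have h1 : ι μ = j RatFunc.X := by
      rw [← hX]
      exact ι.commutes RatFunc.X
    change a (ι μ) ≠ 1
    rw [h1, ha, hw]
    norm_num

end Vale.Agent.P184.AQ
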