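import Vale.Agent.P184.Mods

/-! Module AMEN of P184. -/

namespace Vale.Agent.P184.AM

open Vale.Agent.P184

universe u

variable {G : Type u} [Group G]

/-- the family whose infimum defines the potential -/
noncomputable def fam (g : G) (L : G → ℝ) (K : ℝ) (p : G) (n : ℤ) : ℝ :=
  n + K * L (p * g ^ (-n))

/-- the potential -/
noncomputable def pot (g : G) (L : G → ℝ) (K : ℝ) (p : G) : ℝ := ⨅ n : ℤ, fam g L K p n

lemma L_zpow (g : G) (L : G → ℝ) (hL : IsLength L) {c : ℝ}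
    (h : ∀ n : ℕ, c * n ≤ L (g ^ n)) (n : ℤ) : c * |(n : ℝ)| ≤ L (g ^ n) := by
  obtain ⟨k, rfl | rfl⟩ := n.eq_nat_or_neg
  · have := h k
    simpa using this
  · have := h k
    rw [zpow_neg, zpow_natCast, hL.inv]
    simpa using this

lemma fam_ge (g : G) (L : G → ℝ) (hL : IsLength L) {c : ℝ} (hc : 0 < c)
    (h : ∀ n : ℕ, c * n ≤ L (g ^ n)) (p : G) (n : ℤ) :
    -(1 / c * L p) ≤ fam g L (1 / c) p n := by
  unfold fam
  have h1 : L (g ^ (-n)) ≤ L p + L (p * g ^ (-n)) := by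
    have := hL.mul p⁻¹ (p * g ^ (-n))
    rw [hL.inv] at this
    simpa [mul_assoc] using this
  have h2 := L_zpow g L hL h (-n)
  have h3 : -(n : ℝ) ≤ |(((-n : ℤ)) : ℝ)| := by
    push_cast
    exact le_abs_self _
  have h4 : -(n : ℝ) ≤ 1 / c * (L p + L (p * g ^ (-n))) := by
    calc -(n : ℝ) ≤ |(((-n : ℤ)) : ℝ)| := h3
      _ = 1 / c * (c * |(((-n : ℤ)) : ℝ)|) := by field_simp
      _ ≤ 1 / c * (L p + L (p * g ^ (-n))) :=
        mul_le_mul_of_nonneg_left (h2.trans h1) (by positivity)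
  linarith

lemma fam_bdd (g : G) (L : G → ℝ) (hL : IsLength L) {c : ℝ} (hc : 0 < c)
    (h : ∀ n : ℕ, c * n ≤ L (g ^ n)) (p : G) : BddBelow (Set.range (fam g L (1 / c) p)) :=
  ⟨_, by rintro _ ⟨n, rfl⟩; exact fam_ge g L hL hc h p n⟩

lemma pot_lip (g : G) (L : G → ℝ) (hL : IsLength L) {c : ℝ} (hc : 0 < c)
    (h : ∀ n : ℕ, c * n ≤ L (g ^ n)) (x p : G) :
    |pot g L (1 / c) (x * p) - pot g L (1 / c) p| ≤ 1 / c * L x := by
  have key : ∀ x p : G, pot g L (1 / c) (x * p) ≤ pot g L (1 / c) p + 1 / c * L x := by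
    intro x p
    have : pot g L (1 / c) (x * p) - 1 / c * L x ≤ pot g L (1 / c) p := by
      apply le_ciInf
      intro n
      have h1 : pot g L (1 / c) (x * p) ≤ fam g L (1 / c) (x * p) n :=
        ciInf_le (fam_bdd g L hL hc h _) n
      have h2 : L (x * p * g ^ (-n)) ≤ L x + L (p * g ^ (-n)) := by
        rw [mul_assoc]
        exact hL.mul _ _
      have h3 : 1 / c * L (x * p * g ^ (-n)) ≤ 1 / c * (L x + L (p * g ^ (-n))) :=
        mul_le_mul_of_nonneg_left h2 (by positivity)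
      unfold fam at h1 ⊢
      linarith
    linarith
  rw [abs_le]
  have h1 := key x p
  have h2 := key x⁻¹ (x * p)
  rw [inv_mul_cancel_left, hL.inv] at h2
  constructor <;> linarith

lemma pot_mul_g (g : G) (L : G → ℝ) (hL : IsLength L) {c : ℝ} (hc : 0 < c)
    (h : ∀ n : ℕ, c * n ≤ L (g ^ n)) (p : G) :
    pot g L (1 / c) (p * g) = pot g L (1 / c) p + 1 := by
  have e : ∀ n : ℤ, fam g L (1 / c) (p * g) (n + 1) = fam g L (1 / c) p n + 1 := by
    intro n
    unfold fam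
    have : p * g * g ^ (-(n + 1)) = p * g ^ (-n) := by
      rw [mul_assoc, ← zpow_one_add]
      congr 2
      ring
    rw [this]
    push_cast
    ring
  apply le_antisymm
  · have : pot g L (1 / c) (p * g) - 1 ≤ pot g L (1 / c) p := by
      apply le_ciInf
      intro n
      have h1 : pot g L (1 / c) (p * g) ≤ fam g L (1 / c) (p * g) (n + 1) :=
        ciInf_le (fam_bdd g L hL hc h _) _
      rw [e] at h1
      linarith
    linarith
  · apply le_ciInf
    intro n
    have h1 : pot g L (1 / c) p ≤ fam g L (1 / c) p (n - 1) :=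
      ciInf_le (fam_bdd g L hL hc h _) _
    have h2 := e (n - 1)
    rw [sub_add_cancel] at h2
    linarith

theorem aux (g : G) (L : G → ℝ) (hL : IsLength L) (c : ℝ) (hc : 0 < c)
    (h : ∀ n : ℕ, c * n ≤ L (g ^ n)) (H : Subgroup G) (hmem : ∀ k : G, Commute k g → k ∈ H)
    (hcom : ∀ p : H, g * (p : G) = p * g) (m : (H → ℝ) → ℝ)
    (m_add : ∀ f f', Bdd f → Bdd f' → m (fun x => f x + f' x) = m f + m f')
    (m_smul : ∀ (a : ℝ) f, Bdd f → m (fun x => a * f x) = a * m f)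
    (m_nonneg : ∀ f, Bdd f → (∀ x, 0 ≤ f x) → 0 ≤ m f) (m_one : m (fun _ => 1) = 1)
    (m_inv : ∀ (y : H) f, Bdd f → m (fun x => f (y⁻¹ * x)) = m f) : Crit g := by
  set P := pot g L (1 / c) with hP
  let D : G → H → ℝ := fun x p => P (x * p) - P p
  have hD : ∀ x p, |D x p| ≤ 1 / c * L x := fun x p => pot_lip g L hL hc h x p
  have hDb : ∀ x, Bdd (D x) := fun x => ⟨_, hD x⟩
  have hm_le : ∀ f : H → ℝ, ∀ B : ℝ, (∀ p, f p ≤ B) → Bdd f → m f ≤ B := by
    intro f B hf hb
    obtain ⟨C, hC⟩ := hb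
    have hb1 : Bdd (fun x : H => (-1 : ℝ) * f x) := ⟨C, fun x => by simpa using hC x⟩
    have hb2 : Bdd (fun _ : H => B * (1 : ℝ)) := ⟨|B|, fun x => by simp⟩
    have hb3 : Bdd (fun _ : H => (1 : ℝ)) := ⟨1, fun x => by simp⟩
    have h1 : 0 ≤ m (fun x => B * (1 : ℝ) + (-1 : ℝ) * f x) := by
      apply m_nonneg
      · obtain ⟨a, ha⟩ := hb1
        obtain ⟨b, hb⟩ := hb2
        exact ⟨b + a, fun x => (abs_add_le _ _).trans (add_le_add (hb x) (ha x))⟩
      · intro x
        have := hf x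
        linarith
    rw [m_add _ _ hb2 hb1, m_smul B _ hb3, m_smul (-1) f ⟨C, hC⟩, m_one] at h1
    linarith
  refine ⟨fun x => 1 / c * L x, fun x => m (D x), 0, ?_, ?_, ?_, ?_⟩
  · refine ⟨fun x => mul_nonneg (by positivity) (hL.nonneg x), fun x => by simp only [hL.inv],
      fun x y => ?_⟩
    have := mul_le_mul_of_nonneg_left (hL.mul x y) (by positivity : (0 : ℝ) ≤ 1 / c)
    linarith
  · intro k k' hk hk'
    have h1 : D (k * k') = fun p => D k ((⟨k', hmem k' hk'⟩ : H) * p) + D k' p := by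
      funext p
      simp only [D, Subgroup.coe_mul, mul_assoc]
      ring
    have h2 := m_inv (⟨k', hmem k' hk'⟩ : H)⁻¹ (D k) (hDb k)
    simp only [inv_inv] at h2
    have h3 := m_add (fun p => D k ((⟨k', hmem k' hk'⟩ : H) * p)) (D k')
      ⟨_, fun p => hD k _⟩ (hDb k')
    show m (D (k * k')) = m (D k) + m (D k')
    rw [h1, h3, h2]
  · intro k _
    rw [zero_add]
    exact hm_le _ _ (fun p => (le_abs_self _).trans (hD k p)) (hDb k)
  · have h1 : D g = fun _ => 1 := by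
      funext p
      simp only [D]
      rw [hcom p, hP, pot_mul_g g L hL hc h]
      ring
    show m (D g) ≠ 0
    rw [h1, m_one]
    exact one_ne_zero

theorem amen_proof : AMEN.{u} := by
  intro G _ g L hL ⟨c, hc, h⟩ ⟨m, m_add, m_smul, m_nonneg, m_one, m_inv⟩
  refine aux g L hL c hc h _ ?_ ?_ m m_add m_smul m_nonneg m_one m_inv
  · intro k hk
    rw [Subgroup.mem_centralizer_iff]
    intro y hy
    rw [Set.mem_singleton_iff] at hy
    rw [hy]
    exact hk.symm.eq
  · intro p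
    exact (Subgroup.mem_centralizer_iff.mp p.2) g rfl

end Vale.Agent.P184.AM
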