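import Vale.Agent.P184.BanTr

/-!
M3 (helper13): homotopy invariance of traces of idempotents in an l1 crossed product.
-/

universe u

namespace Vale.Agent.P184.BN

open scoped ENNReal Topology
open Filter

section Unitary

variable {G : Type*} [Group G]

/-- The unimodular function `y ↦ exp (i t b(x, y))`. -/
noncomputable def ut (b : G → G → ℝ) (t : ℝ) (x : G) : BB G :=
  BB.mk' (fun y => Complex.exp (((t * b x y : ℝ) : ℂ) * Complex.I)) ⟨1, fun y => by
    rw [Complex.norm_exp_ofReal_mul_I]⟩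

lemma ut_ev (b : G → G → ℝ) (t : ℝ) (x y : G) :
    (ut b t x).ev y = Complex.exp (((t * b x y : ℝ) : ℂ) * Complex.I) := rfl

lemma ut_norm (b : G → G → ℝ) (t : ℝ) (x : G) : ‖ut b t x‖ ≤ 1 :=
  BB.norm_le zero_le_one (fun y => by rw [ut_ev, Complex.norm_exp_ofReal_mul_I])

/-- The unitary-like operators. -/
noncomputable def Vt (b : G → G → ℝ) (t : ℝ) (x : G) : Op G := V (ut b t x) x

lemma Vt_norm (b : G → G → ℝ) (t : ℝ) (x : G) : ‖Vt b t x‖ ≤ 1 :=
  (V_norm _ _).trans (ut_norm b t x)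

lemma Vt_mul {b : G → G → ℝ} (hb : ∀ x x' y, b (x * x') y = b x y + b x' (x⁻¹ * y * x))
    (t : ℝ) (x x' : G) : Vt b t x * Vt b t x' = Vt b t (x * x') := by
  rw [Vt, Vt, V_mul, Vt]
  have : aop (ut b t x) x (ut b t x') = ut b t (x * x') := by
    apply BB.ext'
    intro y
    rw [aop_ev, ut_ev, ut_ev, ut_ev, ← Complex.exp_add, hb]
    congr 1
    push_cast
    ring
  rw [this]

lemma Vt_diff {b : G → G → ℝ} {L : G → ℝ} (hL : ∀ x y, |b x y| ≤ L x) (t : ℝ) (x : G) :
    ‖Vt b t x - Vt b 0 x‖ ≤ |t| * L x := by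
  rw [Vt, Vt, ← V_sub]
  have hL0 : 0 ≤ L x := (abs_nonneg _).trans (hL x x)
  refine (V_norm _ _).trans (BB.norm_le (by positivity) (fun y => ?_))
  rw [BB.ev_sub, ut_ev, ut_ev]
  have h1 : Complex.exp (((0 * b x y : ℝ) : ℂ) * Complex.I) = 1 := by simp
  rw [h1, mul_comm ((t * b x y : ℝ) : ℂ) Complex.I]
  refine (Real.norm_exp_I_mul_ofReal_sub_one_le).trans ?_
  rw [Real.norm_eq_abs, abs_mul]
  exact mul_le_mul_of_nonneg_left (hL x y) (abs_nonneg t)

end Unitary

section Gen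

variable {G : Type*} [Group G]

/-- The change of variables `(g, h) ↦ (h, h⁻¹ g)`. -/
def shear (G : Type*) [Group G] : G × G ≃ G × G where
  toFun p := (p.2, p.2⁻¹ * p.1)
  invFun z := (z.1 * z.2, z.1)
  left_inv p := by simp
  right_inv z := by simp

lemma shear_apply (g h : G) : shear G (g, h) = (h, h⁻¹ * g) := rfl

lemma summ_smul {A : Type*} [NormedRing A] [NormedAlgebra ℂ A] (v : G → A)
    (hv : ∀ x, ‖v x‖ ≤ 1) (c : G → ℂ) (hc : Summable fun x => ‖c x‖) :
    Summable fun x => ‖c x • v x‖ := by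
  refine Summable.of_nonneg_of_le (fun _ => norm_nonneg _) (fun x => ?_) hc
  rw [norm_smul]
  calc ‖c x‖ * ‖v x‖ ≤ ‖c x‖ * 1 := mul_le_mul_of_nonneg_left (hv x) (norm_nonneg _)
    _ = ‖c x‖ := mul_one _

lemma scal_summ (a b : G → ℂ) (ha : Summable fun x => ‖a x‖) (hb : Summable fun x => ‖b x‖) :
    Summable fun p : G × G => a p.2 * b (p.2⁻¹ * p.1) := by
  have h5 : Summable fun z : G × G => a z.1 * b z.2 :=
    summable_mul_of_summable_norm (f := a) (g := b) ha hb
  exact (shear G).summable_iff.mpr h5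

lemma prod_term {A : Type*} [NormedRing A] [NormedAlgebra ℂ A] (v : G → A)
    (hvm : ∀ x y, v x * v y = v (x * y)) (a b : G → ℂ) (p : G × G) :
    (a (shear G p).1 • v (shear G p).1) * (b (shear G p).2 • v (shear G p).2) =
      (a p.2 * b (p.2⁻¹ * p.1)) • v p.1 := by
  obtain ⟨g, h⟩ := p
  rw [shear_apply, smul_mul_smul_comm, hvm]
  simp only [mul_inv_cancel_left]

lemma prod_summ {A : Type*} [NormedRing A] [NormedAlgebra ℂ A] [CompleteSpace A] (v : G → A)
    (hv : ∀ x, ‖v x‖ ≤ 1) (hvm : ∀ x y, v x * v y = v (x * y)) (a b : G → ℂ)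
    (ha : Summable fun x => ‖a x‖) (hb : Summable fun x => ‖b x‖) :
    Summable fun p : G × G => (a p.2 * b (p.2⁻¹ * p.1)) • v p.1 := by
  have hs1 : Summable fun z : G × G => (a z.1 • v z.1) * (b z.2 • v z.2) :=
    summable_mul_of_summable_norm (f := fun x => a x • v x) (g := fun x => b x • v x)
      (summ_smul v hv a ha) (summ_smul v hv b hb)
  have h2 : (fun p : G × G => (a p.2 * b (p.2⁻¹ * p.1)) • v p.1) =
      (fun z : G × G => (a z.1 • v z.1) * (b z.2 • v z.2)) ∘ (shear G) :=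
    funext fun p => (prod_term v hvm a b p).symm
  rw [h2]
  exact (shear G).summable_iff.mpr hs1

lemma prod_eq {A : Type*} [NormedRing A] [NormedAlgebra ℂ A] [CompleteSpace A] (v : G → A)
    (hv : ∀ x, ‖v x‖ ≤ 1) (hvm : ∀ x y, v x * v y = v (x * y)) (a b : G → ℂ)
    (ha : Summable fun x => ‖a x‖) (hb : Summable fun x => ‖b x‖) :
    (∑' x, a x • v x) * (∑' x, b x • v x) =
      ∑' p : G × G, (a p.2 * b (p.2⁻¹ * p.1)) • v p.1 := by
  rw [tsum_mul_tsum_of_summable_norm (f := fun x => a x • v x) (g := fun x => b x • v x)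
    (summ_smul v hv a ha) (summ_smul v hv b hb), ← (shear G).tsum_eq]
  exact tsum_congr (fun p => prod_term v hvm a b p)

lemma inner_eq {A : Type*} [NormedRing A] [NormedAlgebra ℂ A] [CompleteSpace A] (w : A)
    (c : G → ℂ) (hc : Summable c) : ∑' h, c h • w = (∑' h, c h) • w :=
  hc.tsum_smul_const w

lemma conv_gen {A : Type*} [NormedRing A] [NormedAlgebra ℂ A] [CompleteSpace A] (v : G → A)
    (hv : ∀ x, ‖v x‖ ≤ 1) (hvm : ∀ x y, v x * v y = v (x * y)) (a b : G → ℂ)
    (ha : Summable fun x => ‖a x‖) (hb : Summable fun x => ‖b x‖) :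
    Summable (fun g => (∑' h, a h * b (h⁻¹ * g)) • v g) ∧
    (∑' x, a x • v x) * (∑' x, b x • v x) = ∑' g, (∑' h, a h * b (h⁻¹ * g)) • v g := by
  have hs2 := prod_summ v hv hvm a b ha hb
  have hs3 := scal_summ a b ha hb
  have h5 : ∀ g, ∑' h, (a h * b (h⁻¹ * g)) • v g = (∑' h, a h * b (h⁻¹ * g)) • v g :=
    fun g => inner_eq (v g) _ (hs3.prod_factor g)
  constructor
  · exact hs2.prod.congr (fun g => h5 g)
  · rw [prod_eq v hv hvm a b ha hb, hs2.tsum_prod]
    exact tsum_congr h5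

end Gen

section Mat

variable {G : Type*} [Group G] {q : ℕ}

/-- The idempotents `P_t`. -/
noncomputable def Pt (e : Fin q → Fin q → G → ℂ) (b : G → G → ℝ) (t : ℝ) :
    Matrix (Fin q) (Fin q) (Op G) := fun i j => ∑' x, e i j x • Vt b t x

lemma norm_term (e : Fin q → Fin q → G → ℂ) (b : G → G → ℝ) (t : ℝ) (i j : Fin q) (x : G) :
    ‖e i j x • Vt b t x‖ ≤ ‖e i j x‖ := by
  rw [norm_smul]
  calc ‖e i j x‖ * ‖Vt b t x‖ ≤ ‖e i j x‖ * 1 :=
        mul_le_mul_of_nonneg_left (Vt_norm b t x) (norm_nonneg _)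
    _ = ‖e i j x‖ := mul_one _

lemma summ_norm {e : Fin q → Fin q → G → ℂ} (he : IsIdem e) (b : G → G → ℝ) (t : ℝ)
    (i j : Fin q) : Summable fun x => ‖e i j x • Vt b t x‖ :=
  Summable.of_nonneg_of_le (fun _ => norm_nonneg _) (norm_term e b t i j) (he.summable i j)

lemma summ_term {e : Fin q → Fin q → G → ℂ} (he : IsIdem e) (b : G → G → ℝ) (t : ℝ)
    (i j : Fin q) : Summable fun x => e i j x • Vt b t x := (summ_norm he b t i j).of_norm

lemma mul_term {e : Fin q → Fin q → G → ℂ} (he : IsIdem e) {b : G → G → ℝ}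
    (hb : ∀ x x' y, b (x * x') y = b x y + b x' (x⁻¹ * y * x)) (t : ℝ) (i k j : Fin q) :
    Summable (fun g => (∑' h, e i k h * e k j (h⁻¹ * g)) • Vt b t g) ∧
    Pt e b t i k * Pt e b t k j = ∑' g, (∑' h, e i k h * e k j (h⁻¹ * g)) • Vt b t g :=
  conv_gen (Vt b t) (Vt_norm b t) (Vt_mul hb t) (e i k) (e k j) (he.summable i k)
    (he.summable k j)

lemma Pt_mul {e : Fin q → Fin q → G → ℂ} (he : IsIdem e) {b : G → G → ℝ}
    (hb : ∀ x x' y, b (x * x') y = b x y + b x' (x⁻¹ * y * x)) (t : ℝ) :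
    Pt e b t * Pt e b t = Pt e b t := by
  ext1 i j
  rw [Matrix.mul_apply]
  have h1 : ∑ k, Pt e b t i k * Pt e b t k j =
      ∑ k, ∑' g, (∑' h, e i k h * e k j (h⁻¹ * g)) • Vt b t g :=
    Finset.sum_congr rfl (fun k _ => (mul_term he hb t i k j).2)
  rw [h1, ← Summable.tsum_finsetSum (fun k _ => (mul_term he hb t i k j).1)]
  show _ = ∑' x, e i j x • Vt b t x
  apply tsum_congr
  intro g
  rw [← Finset.sum_smul, he.idem]

/-- Matrices with entries in the closed span. -/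
noncomputable def SS (G : Type*) [Group G] (q : ℕ) : Subring (Matrix (Fin q) (Fin q) (Op G)) where
  carrier := {X | ∀ i j, X i j ∈ (W : Submodule ℂ (Op G))}
  mul_mem' := by
    intro X Y hX hY i j
    rw [Matrix.mul_apply]
    exact Submodule.sum_mem _ (fun k _ => mul_mem (hX i k) (hY k j))
  one_mem' := by
    intro i j
    rw [Matrix.one_apply]
    split_ifs
    · exact one_mem
    · exact Submodule.zero_mem _
  add_mem' := by
    intro X Y hX hY i j
    exact Submodule.add_mem _ (hX i j) (hY i j)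
  zero_mem' := by
    intro i j
    exact Submodule.zero_mem _
  neg_mem' := by
    intro X hX i j
    exact Submodule.neg_mem _ (hX i j)

lemma Pt_mem {e : Fin q → Fin q → G → ℂ} (he : IsIdem e) (b : G → G → ℝ) (t : ℝ) :
    Pt e b t ∈ SS G q := by
  intro i j
  have h1 := (summ_term he b t i j).hasSum
  refine isClosed_W.mem_of_tendsto h1 (Eventually.of_forall (fun s => ?_))
  exact Submodule.sum_mem _ (fun x _ => Submodule.smul_mem _ _ (V_mem _ _))

/-- The trace of a matrix of operators. -/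
noncomputable def TT (g : G) (q : ℕ) : Matrix (Fin q) (Fin q) (Op G) →+ ℂ where
  toFun X := ∑ i, T0 g (X i i)
  map_zero' := by simp
  map_add' X Y := by
    rw [← Finset.sum_add_distrib]
    exact Finset.sum_congr rfl (fun i _ => by rw [Matrix.add_apply, map_add])

lemma TT_apply (g : G) (X : Matrix (Fin q) (Fin q) (Op G)) : TT g q X = ∑ i, T0 g (X i i) := rfl

lemma TT_comm (g : G) {X Y : Matrix (Fin q) (Fin q) (Op G)} (hX : X ∈ SS G q)
    (hY : Y ∈ SS G q) : TT g q (X * Y) = TT g q (Y * X) := by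
  rw [TT_apply, TT_apply]
  have h1 : ∀ i, T0 g ((X * Y) i i) = ∑ k, T0 g (X i k * Y k i) := by
    intro i
    rw [Matrix.mul_apply, map_sum]
  have h2 : ∀ k, T0 g ((Y * X) k k) = ∑ i, T0 g (Y k i * X i k) := by
    intro k
    rw [Matrix.mul_apply, map_sum]
  rw [Finset.sum_congr rfl (fun i _ => h1 i), Finset.sum_congr rfl (fun i _ => h2 i),
    Finset.sum_comm]
  exact Finset.sum_congr rfl (fun k _ => Finset.sum_congr rfl
    (fun i _ => trace_comm g (hX i k) (hY k i)))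

/-- The size of a matrix of operators. -/
noncomputable def nu (X : Matrix (Fin q) (Fin q) (Op G)) : ℝ := ∑ i, ∑ j, ‖X i j‖

lemma nu_nonneg (X : Matrix (Fin q) (Fin q) (Op G)) : 0 ≤ nu X :=
  Finset.sum_nonneg (fun _ _ => Finset.sum_nonneg (fun _ _ => norm_nonneg _))

lemma nu_mul (X Y : Matrix (Fin q) (Fin q) (Op G)) : nu (X * Y) ≤ nu X * nu Y := by
  have h1 : ∀ i j, ‖(X * Y) i j‖ ≤ ∑ k, ‖X i k‖ * ‖Y k j‖ := by
    intro i j
    rw [Matrix.mul_apply]
    exact (norm_sum_le _ _).trans (Finset.sum_le_sum (fun k _ => norm_mul_le _ _))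
  calc nu (X * Y) ≤ ∑ i, ∑ j, ∑ k, ‖X i k‖ * ‖Y k j‖ :=
        Finset.sum_le_sum (fun i _ => Finset.sum_le_sum (fun j _ => h1 i j))
    _ = ∑ i, ∑ k, ‖X i k‖ * ∑ j, ‖Y k j‖ := by
        refine Finset.sum_congr rfl (fun i _ => ?_)
        rw [Finset.sum_comm]
        exact Finset.sum_congr rfl (fun k _ => by rw [Finset.mul_sum])
    _ ≤ ∑ i, ∑ k, ‖X i k‖ * nu Y := by
        refine Finset.sum_le_sum (fun i _ => Finset.sum_le_sum (fun k _ => ?_))
        refine mul_le_mul_of_nonneg_left ?_ (norm_nonneg _)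
        exact Finset.single_le_sum (f := fun k => ∑ j, ‖Y k j‖)
          (fun _ _ => Finset.sum_nonneg (fun _ _ => norm_nonneg _)) (Finset.mem_univ k)
    _ = nu X * nu Y := by
        conv_rhs => rw [nu, Finset.sum_mul]
        exact Finset.sum_congr rfl (fun i _ => by rw [Finset.sum_mul])

lemma nu_pow (X : Matrix (Fin q) (Fin q) (Op G)) (n : ℕ) : nu (X ^ (n + 1)) ≤ nu X ^ (n + 1) := by
  induction n with
  | zero => simp
  | succ n ih =>
    rw [pow_succ X, pow_succ (nu X)]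
    exact (nu_mul _ _).trans (mul_le_mul_of_nonneg_right ih (nu_nonneg X))

lemma TT_le (g : G) (X : Matrix (Fin q) (Fin q) (Op G)) : ‖TT g q X‖ ≤ ‖T0 g‖ * nu X := by
  rw [TT_apply, nu, Finset.mul_sum]
  refine (norm_sum_le _ _).trans (Finset.sum_le_sum (fun i _ => ?_))
  refine ((T0 g).le_opNorm _).trans (mul_le_mul_of_nonneg_left ?_ (norm_nonneg _))
  exact Finset.single_le_sum (f := fun j => ‖X i j‖) (fun _ _ => norm_nonneg _)
    (Finset.mem_univ i)

lemma TT_eq_of_close (g : G) {p r : Matrix (Fin q) (Fin q) (Op G)} (hpS : p ∈ SS G q)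
    (hrS : r ∈ SS G q) (hp : p * p = p) (hr : r * r = r) (h : nu (p - r) < 1) :
    TT g q p = TT g q r := by
  have h1 : ∀ n : ℕ, ‖TT g q p - TT g q r‖ ≤ ‖T0 g‖ * nu (p - r) ^ (2 * n + 1) := by
    intro n
    rw [← trace_pow (SS G q) (TT g q) (fun x hx y hy => TT_comm g hx hy) hpS hrS hp hr n]
    exact (TT_le g _).trans (mul_le_mul_of_nonneg_left (nu_pow _ _) (norm_nonneg (T0 g)))
  have h2 : Tendsto (fun n : ℕ => ‖T0 g‖ * nu (p - r) ^ (2 * n + 1)) atTop
      (𝓝 (‖T0 g‖ * 0)) := by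
    apply Tendsto.const_mul
    have h3 := tendsto_pow_atTop_nhds_zero_of_lt_one (nu_nonneg (p - r)) h
    exact h3.comp (tendsto_atTop_mono (fun n : ℕ => (by omega : n ≤ 2 * n + 1)) tendsto_id)
  rw [mul_zero] at h2
  have h3 : ‖TT g q p - TT g q r‖ ≤ 0 := ge_of_tendsto' h2 h1
  exact sub_eq_zero.mp (norm_le_zero_iff.mp h3)

lemma Pt_tendsto {e : Fin q → Fin q → G → ℂ} (he : IsIdem e) {b : G → G → ℝ} {L : G → ℝ}
    (hL : ∀ x y, |b x y| ≤ L x) (i j : Fin q) :
    Tendsto (fun t => Pt e b t i j) (𝓝 0) (𝓝 (Pt e b 0 i j)) := by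
  refine tendsto_tsum_of_dominated_convergence (bound := fun x => ‖e i j x‖)
    (he.summable i j) (fun x => ?_) (Eventually.of_forall (fun t x => norm_term e b t i j x))
  rw [tendsto_iff_norm_sub_tendsto_zero]
  have h1 : Tendsto (fun t : ℝ => ‖e i j x‖ * (|t| * L x)) (𝓝 0) (𝓝 0) := by
    have h2 : Tendsto (fun t : ℝ => ‖e i j x‖ * (|t| * L x)) (𝓝 0)
        (𝓝 (‖e i j x‖ * (|0| * L x))) :=
      ((continuous_abs.tendsto 0).mul_const (L x)).const_mul _
    simpa using h2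
  refine squeeze_zero (fun _ => norm_nonneg _) (fun t => ?_) h1
  rw [← smul_sub, norm_smul]
  exact mul_le_mul_of_nonneg_left (Vt_diff hL t x) (norm_nonneg _)

lemma nu_tendsto {e : Fin q → Fin q → G → ℂ} (he : IsIdem e) {b : G → G → ℝ} {L : G → ℝ}
    (hL : ∀ x y, |b x y| ≤ L x) :
    Tendsto (fun t => nu (Pt e b t - Pt e b 0)) (𝓝 0) (𝓝 0) := by
  have h1 : Tendsto (fun t => nu (Pt e b t - Pt e b 0)) (𝓝 0)
      (𝓝 (∑ _i : Fin q, ∑ _j : Fin q, (0 : ℝ))) := by
    refine tendsto_finsetSum _ (fun i _ => tendsto_finsetSum _ (fun j _ => ?_))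
    have h2 := (Pt_tendsto he hL i j)
    rw [tendsto_iff_norm_sub_tendsto_zero] at h2
    exact h2
  simpa using h1

open Classical in
lemma TT_Pt (g : G) {e : Fin q → Fin q → G → ℂ} (he : IsIdem e) {b : G → G → ℝ} {κ : ℝ}
    (hk : ∀ y, IsConj g y → b y y = κ) (t : ℝ) :
    TT g q (Pt e b t) = Complex.exp (((t * κ : ℝ) : ℂ) * Complex.I) *
      tau e (ConjClasses.mk g) := by
  have hs : ∀ i, Summable fun x => if IsConj g x then e i i x else (0 : ℂ) := by
    intro i
    refine Summable.of_norm_bounded (he.summable i i) (fun x => ?_)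
    split_ifs
    · exact le_rfl
    · simp
  have h1 : ∀ i, T0 g (Pt e b t i i) = Complex.exp (((t * κ : ℝ) : ℂ) * Complex.I) *
      ∑' x, if IsConj g x then e i i x else (0 : ℂ) := by
    intro i
    have h2 : T0 g (Pt e b t i i) = ∑' x, T0 g (e i i x • Vt b t x) :=
      (T0 g).map_tsum (summ_term he b t i i)
    rw [h2, ← tsum_mul_left]
    apply tsum_congr
    intro x
    rw [map_smul, Vt, T0_V, smul_eq_mul]
    split_ifs with h
    · rw [ut_ev, hk x h, mul_comm]
    · simp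
  rw [TT_apply, Finset.sum_congr rfl (fun i _ => h1 i), ← Finset.mul_sum]
  congr 1
  rw [tau, tsum_subtype (ConjClasses.mk g).carrier (fun x => ∑ i, e i i x),
    ← Summable.tsum_finsetSum (fun i _ => hs i)]
  apply tsum_congr
  intro x
  rw [Set.indicator_apply]
  have h3 : x ∈ (ConjClasses.mk g).carrier ↔ IsConj g x := by
    rw [ConjClasses.mem_carrier_iff_mk_eq, ConjClasses.mk_eq_mk_iff_isConj]
    exact ⟨fun h => h.symm, fun h => h.symm⟩
  by_cases h : IsConj g x
  · rw [if_pos (h3.mpr h)]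
    exact Finset.sum_congr rfl (fun i _ => by rw [if_pos h])
  · rw [if_neg (fun h' => h (h3.mp h'))]
    exact Finset.sum_eq_zero (fun i _ => by rw [if_neg h])

end Mat

theorem ban_proof : BAN.{u} := by
  intro G _ g L b κ hb hL hk hκ q e he
  have h1 := nu_tendsto he hL
  have h2 : ∀ᶠ t in 𝓝 (0 : ℝ), nu (Pt e b t - Pt e b 0) < 1 :=
    h1.eventually (gt_mem_nhds zero_lt_one)
  obtain ⟨δ, hδ, hball⟩ := Metric.eventually_nhds_iff.mp h2
  set t : ℝ := min (δ / 2) (1 / (|κ| + 1)) with ht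
  have hk0 : 0 < |κ| := abs_pos.mpr hκ
  have ht0 : 0 < t := lt_min (by linarith) (by positivity)
  have htδ : dist t 0 < δ := by
    rw [Real.dist_eq, sub_zero, abs_of_pos ht0]
    exact (min_le_left _ _).trans_lt (by linarith)
  have htk : |t * κ| < 1 := by
    rw [abs_mul, abs_of_pos ht0]
    calc t * |κ| ≤ 1 / (|κ| + 1) * |κ| :=
          mul_le_mul_of_nonneg_right (min_le_right _ _) hk0.le
      _ < 1 := by
          rw [one_div, inv_mul_lt_iff₀ (by positivity)]
          linarith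
  have h3 := TT_eq_of_close g (Pt_mem he b t) (Pt_mem he b 0) (Pt_mul he hb t) (Pt_mul he hb 0)
    (hball htδ)
  rw [TT_Pt g he hk t, TT_Pt g he hk 0] at h3
  have h4 : Complex.exp (((0 * κ : ℝ) : ℂ) * Complex.I) = 1 := by simp
  rw [h4, one_mul] at h3
  have h5 : (Complex.exp (((t * κ : ℝ) : ℂ) * Complex.I) - 1) * tau e (ConjClasses.mk g) = 0 := by
    rw [sub_mul, h3, one_mul, sub_self]
  rcases mul_eq_zero.mp h5 with h6 | h6
  · exfalso
    have h7 : Complex.exp (((t * κ : ℝ) : ℂ) * Complex.I) = 1 := sub_eq_zero.mp h6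
    rw [Complex.exp_eq_one_iff] at h7
    obtain ⟨n, hn⟩ := h7
    have h8 : ((t * κ : ℝ) : ℂ) = ((n * (2 * Real.pi) : ℝ) : ℂ) := by
      have h9 : ((t * κ : ℝ) : ℂ) * Complex.I = ((n * (2 * Real.pi) : ℝ) : ℂ) * Complex.I := by
        rw [hn]
        push_cast
        ring
      exact mul_right_cancel₀ Complex.I_ne_zero h9
    have h10 : t * κ = n * (2 * Real.pi) := by exact_mod_cast h8
    rw [h10, abs_mul, abs_of_pos (by positivity : (0 : ℝ) < 2 * Real.pi)] at htk
    have h11 : n = 0 := by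
      by_contra hn0
      have h12 : (1 : ℝ) ≤ |(n : ℝ)| := by exact_mod_cast Int.one_le_abs hn0
      have h13 : (1 : ℝ) < 2 * Real.pi := by linarith [Real.pi_gt_three]
      nlinarith
    rw [h11] at h10
    simp only [Int.cast_zero, zero_mul] at h10
    rcases mul_eq_zero.mp h10 with h | h
    · exact ht0.ne' h
    · exact hκ h
  · exact h6

end Vale.Agent.P184.BN
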