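import Vale.Agent.P184.BanRing

/-!
M3 part 2 (helper13): the Banach space on which the l1 crossed product acts, and the trace.
-/

namespace Vale.Agent.P184.BN

open scoped ENNReal Topology
open Filter

/-! ### Two Banach spaces, made opaque for instance search -/

/-- Bounded functions on `G`. -/
def BB (G : Type*) : Type _ := lp (fun _ : G => ℂ) ∞

namespace BB

variable {G : Type*}

noncomputable instance : NormedAddCommGroup (BB G) :=
  inferInstanceAs (NormedAddCommGroup (lp (fun _ : G => ℂ) ∞))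

noncomputable instance : NormedSpace ℂ (BB G) :=
  inferInstanceAs (NormedSpace ℂ (lp (fun _ : G => ℂ) ∞))

instance : CompleteSpace (BB G) :=
  inferInstanceAs (CompleteSpace (lp (fun _ : G => ℂ) ∞))

/-- The values. -/
def ev (f : BB G) (y : G) : ℂ := Subtype.val (show lp (fun _ : G => ℂ) ∞ from f) y

lemma ev_add (f f' : BB G) (y : G) : (f + f').ev y = f.ev y + f'.ev y := rfl
lemma ev_sub (f f' : BB G) (y : G) : (f - f').ev y = f.ev y - f'.ev y := rfl
lemma ev_smul (c : ℂ) (f : BB G) (y : G) : (c • f).ev y = c * f.ev y := rfl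
lemma ev_zero (y : G) : (0 : BB G).ev y = 0 := rfl

lemma norm_ev_le (f : BB G) (y : G) : ‖f.ev y‖ ≤ ‖f‖ :=
  lp.norm_apply_le_norm (E := fun _ : G => ℂ) ENNReal.top_ne_zero f y

lemma norm_le {f : BB G} {C : ℝ} (hC : 0 ≤ C) (h : ∀ y, ‖f.ev y‖ ≤ C) : ‖f‖ ≤ C :=
  lp.norm_le_of_forall_le (E := fun _ : G => ℂ) hC h

lemma ext' {f f' : BB G} (h : ∀ y, f.ev y = f'.ev y) : f = f' :=
  lp.ext (E := fun _ : G => ℂ) (funext h)

/-- Constructor. -/
def mk' (f : G → ℂ) (h : ∃ C : ℝ, ∀ y, ‖f y‖ ≤ C) : BB G :=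
  show lp (fun _ : G => ℂ) ∞ from ⟨f, by
    apply memℓp_infty
    obtain ⟨C, hC⟩ := h
    exact ⟨C, by rintro _ ⟨y, rfl⟩; exact hC y⟩⟩

lemma ev_mk' (f : G → ℂ) (h : ∃ C : ℝ, ∀ y, ‖f y‖ ≤ C) (y : G) : (mk' f h).ev y = f y := rfl

end BB

/-- Absolutely summable families in a Banach space. -/
def EE (G : Type*) (B : Type*) [NormedAddCommGroup B] : Type _ := lp (fun _ : G => B) 1

namespace EE

set_option linter.unusedSectionVars false

variable {G : Type*} {B : Type*} [NormedAddCommGroup B] [NormedSpace ℂ B]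

noncomputable instance : NormedAddCommGroup (EE G B) :=
  inferInstanceAs (NormedAddCommGroup (lp (fun _ : G => B) 1))

noncomputable instance : NormedSpace ℂ (EE G B) :=
  inferInstanceAs (NormedSpace ℂ (lp (fun _ : G => B) 1))

instance [CompleteSpace B] : CompleteSpace (EE G B) :=
  inferInstanceAs (CompleteSpace (lp (fun _ : G => B) 1))

/-- The values. -/
def ev (F : EE G B) (g : G) : B := Subtype.val (show lp (fun _ : G => B) 1 from F) g

lemma ev_add (f f' : EE G B) (y : G) : (f + f').ev y = f.ev y + f'.ev y := rfl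
lemma ev_sub (f f' : EE G B) (y : G) : (f - f').ev y = f.ev y - f'.ev y := rfl
lemma ev_smul (c : ℂ) (f : EE G B) (y : G) : (c • f).ev y = c • f.ev y := rfl

lemma ext' {f f' : EE G B} (h : ∀ y, f.ev y = f'.ev y) : f = f' :=
  lp.ext (E := fun _ : G => B) (funext h)

lemma summ (F : EE G B) : Summable fun g => ‖F.ev g‖ := by
  have := (memℓp_gen_iff (E := fun _ : G => B) (p := 1) (by norm_num)).mp
    (lp.memℓp (show lp (fun _ : G => B) 1 from F))
  simp only [ENNReal.toReal_one, Real.rpow_one] at this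
  exact this

lemma norm_eq (F : EE G B) : ‖F‖ = ∑' g, ‖F.ev g‖ := by
  have := lp.norm_eq_tsum_rpow (E := fun _ : G => B) (p := 1) (by norm_num) F
  simp only [ENNReal.toReal_one, Real.rpow_one, div_one] at this
  exact this

/-- Constructor. -/
def mk' (F : G → B) (h : Summable fun g => ‖F g‖) : EE G B :=
  show lp (fun _ : G => B) 1 from ⟨F, by
    apply memℓp_gen
    simpa using h⟩

lemma ev_mk' (F : G → B) (h : Summable fun g => ‖F g‖) (g : G) : (mk' F h).ev g = F g := rfl

end EE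

section Dop

variable {G : Type*} [Group G] {B : Type*} [NormedAddCommGroup B] [NormedSpace ℂ B]

lemma summ_shift (F : EE G B) (x : G) : Summable fun g => ‖F.ev (x⁻¹ * g)‖ :=
  (Equiv.mulLeft x⁻¹).summable_iff.mpr F.summ

/-- The operator `F ↦ (g ↦ a (F (x⁻¹ g)))`. -/
noncomputable def dop (a : B →L[ℂ] B) (x : G) : EE G B →L[ℂ] EE G B :=
  LinearMap.mkContinuous
    { toFun := fun F => EE.mk' (fun g => a (F.ev (x⁻¹ * g)))
        (Summable.of_nonneg_of_le (fun _ => norm_nonneg _)
          (fun g => a.le_opNorm _) ((summ_shift F x).mul_left ‖a‖))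
      map_add' := fun F F' => by
        apply EE.ext'
        intro g
        rw [EE.ev_add, EE.ev_mk', EE.ev_mk', EE.ev_mk', EE.ev_add, map_add]
      map_smul' := fun c F => by
        apply EE.ext'
        intro g
        rw [RingHom.id_apply, EE.ev_smul, EE.ev_mk', EE.ev_mk', EE.ev_smul, map_smul] }
    ‖a‖ (fun F => by
      rw [EE.norm_eq, EE.norm_eq]
      simp only [LinearMap.coe_mk, AddHom.coe_mk, EE.ev_mk']
      have h1 : ∑' g, ‖F.ev (x⁻¹ * g)‖ = ∑' g, ‖F.ev g‖ :=
        (Equiv.mulLeft x⁻¹).tsum_eq (fun g => ‖F.ev g‖)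
      rw [← h1, ← tsum_mul_left]
      exact Summable.tsum_le_tsum (fun g => a.le_opNorm _)
        (Summable.of_nonneg_of_le (fun _ => norm_nonneg _)
          (fun g => a.le_opNorm _) ((summ_shift F x).mul_left ‖a‖))
        ((summ_shift F x).mul_left ‖a‖))

lemma dop_ev (a : B →L[ℂ] B) (x : G) (F : EE G B) (g : G) :
    (dop a x F).ev g = a (F.ev (x⁻¹ * g)) := rfl

lemma dop_norm (a : B →L[ℂ] B) (x : G) : ‖dop (G := G) a x‖ ≤ ‖a‖ :=
  LinearMap.mkContinuous_norm_le _ (norm_nonneg _) _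

end Dop

section Aop

variable {G : Type*} [Group G]

/-- The operator `f ↦ u * (x . f)`. -/
noncomputable def aop (u : BB G) (x : G) : BB G →L[ℂ] BB G :=
  LinearMap.mkContinuous
    { toFun := fun f => BB.mk' (fun y => u.ev y * f.ev (x⁻¹ * y * x)) ⟨‖u‖ * ‖f‖, fun y => by
        rw [norm_mul]
        exact mul_le_mul (u.norm_ev_le y) (f.norm_ev_le _) (norm_nonneg _) (norm_nonneg _)⟩
      map_add' := fun f f' => by
        apply BB.ext'
        intro y
        rw [BB.ev_add, BB.ev_mk', BB.ev_mk', BB.ev_mk', BB.ev_add, mul_add]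
      map_smul' := fun c f => by
        apply BB.ext'
        intro y
        rw [RingHom.id_apply, BB.ev_smul, BB.ev_mk', BB.ev_mk', BB.ev_smul]
        ring }
    ‖u‖ (fun f => by
      apply BB.norm_le (by positivity)
      intro y
      simp only [LinearMap.coe_mk, AddHom.coe_mk, BB.ev_mk']
      rw [norm_mul]
      exact mul_le_mul (u.norm_ev_le y) (f.norm_ev_le _) (norm_nonneg _) (norm_nonneg _))

lemma aop_ev (u : BB G) (x : G) (f : BB G) (y : G) :
    (aop u x f).ev y = u.ev y * f.ev (x⁻¹ * y * x) := rfl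

lemma aop_norm (u : BB G) (x : G) : ‖aop u x‖ ≤ ‖u‖ :=
  LinearMap.mkContinuous_norm_le _ (norm_nonneg _) _

/-- Operators. -/
abbrev Op (G : Type*) [Group G] := EE G (BB G) →L[ℂ] EE G (BB G)

/-- The operator of left multiplication by `u x`. -/
noncomputable def V (u : BB G) (x : G) : Op G := dop (aop u x) x

lemma V_ev (u : BB G) (x : G) (F : EE G (BB G)) (g y : G) :
    ((V u x F).ev g).ev y = u.ev y * (F.ev (x⁻¹ * g)).ev (x⁻¹ * y * x) := rfl

lemma V_norm (u : BB G) (x : G) : ‖V u x‖ ≤ ‖u‖ := (dop_norm _ _).trans (aop_norm _ _)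

lemma extE {F F' : EE G (BB G)} (h : ∀ g y, (F.ev g).ev y = (F'.ev g).ev y) : F = F' :=
  EE.ext' fun g => BB.ext' fun y => h g y

lemma V_sub (u u' : BB G) (x : G) : V (u - u') x = V u x - V u' x := by
  apply ContinuousLinearMap.ext
  intro F
  apply extE
  intro g y
  rw [sub_apply, EE.ev_sub, BB.ev_sub, V_ev, V_ev, V_ev, BB.ev_sub, sub_mul]

lemma V_mul (u u' : BB G) (x x' : G) : V u x * V u' x' = V (aop u x u') (x * x') := by
  apply ContinuousLinearMap.ext
  intro F
  apply extE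
  intro g y
  have h1 : x'⁻¹ * (x⁻¹ * g) = (x * x')⁻¹ * g := by group
  have h2 : x'⁻¹ * (x⁻¹ * y * x) * x' = (x * x')⁻¹ * y * (x * x') := by group
  rw [mul_apply_eq_comp, V_ev, V_ev, V_ev, aop_ev, h1, h2]
  ring

/-- The constant function one. -/
noncomputable def oneB : BB G := BB.mk' (fun _ => 1) ⟨1, fun _ => by simp⟩

lemma oneB_ev (y : G) : (oneB : BB G).ev y = 1 := rfl

lemma V_one : V (oneB : BB G) 1 = 1 := by
  apply ContinuousLinearMap.ext
  intro F
  apply extE
  intro g y
  rw [V_ev, one_apply_eq_self, oneB_ev]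
  simp

end Aop

end Vale.Agent.P184.BN
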