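import Vale.Agent.P184.Mods

/-!
M3 part 1 (helper13): the ring lemma T((p-r)^(2n+1)) = T p - T r.
-/

namespace Vale.Agent.P184.BN

open scoped ENNReal Topology
open Filter

/-! ### 1. A ring lemma -/

section Ring

variable {R : Type*} [Ring R]

lemma anti (p r : R) (hp : p * p = p) (hr : r * r = r) :
    (1 - p - r) * (p - r) = -((p - r) * (1 - p - r)) := by
  have h1 : (1 - p - r) * (p - r) = p - r - p * p + p * r - r * p + r * r := by noncomm_ring
  have h2 : (p - r) * (1 - p - r) = p - r - p * p - p * r + r * p + r * r := by noncomm_ring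
  rw [h1, h2, hp, hr]
  noncomm_ring

lemma sq_add (p r : R) (hp : p * p = p) (hr : r * r = r) :
    (p - r) * (p - r) = 1 - (1 - p - r) * (1 - p - r) := by
  have h1 : (p - r) * (p - r) = p * p - p * r - r * p + r * r := by noncomm_ring
  have h2 : (1 - p - r) * (1 - p - r) =
      1 - p - r - p - r + p * p + p * r + r * p + r * r := by noncomm_ring
  rw [h1, h2, hp, hr]
  noncomm_ring

lemma anti_pow (d s : R) (h : s * d = -(d * s)) (n : ℕ) :
    s * d ^ (2 * n + 1) = -(d ^ (2 * n + 1) * s) := by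
  induction n with
  | zero => simpa using h
  | succ n ih =>
    have e1 : d ^ (2 * (n + 1) + 1) = d ^ (2 * n + 1) * (d * d) := by
      rw [show 2 * (n + 1) + 1 = (2 * n + 1) + 2 by ring, pow_add, pow_two]
    have e2 : s * (d * d) = d * d * s := by
      rw [← mul_assoc, h, neg_mul, mul_assoc, h, mul_neg, neg_neg, mul_assoc]
    rw [e1, ← mul_assoc, ih, neg_mul, mul_assoc (d ^ (2 * n + 1)) s, e2]
    simp only [mul_assoc]

lemma trace_pow (S : Subring R) (T : R →+ ℂ)
    (hT : ∀ x ∈ S, ∀ y ∈ S, T (x * y) = T (y * x)) {p r : R} (hpS : p ∈ S) (hrS : r ∈ S)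
    (hp : p * p = p) (hr : r * r = r) (n : ℕ) :
    T ((p - r) ^ (2 * n + 1)) = T p - T r := by
  induction n with
  | zero => simp
  | succ n ih =>
    set d := p - r with hd
    set s := 1 - p - r with hs
    have hdS : d ∈ S := S.sub_mem hpS hrS
    have hsS : s ∈ S := S.sub_mem (S.sub_mem S.one_mem hpS) hrS
    have h1 : s * d = -(d * s) := anti p r hp hr
    have h2 : d * d = 1 - s * s := sq_add p r hp hr
    have h3 := anti_pow d s h1 n
    have h4 : T (d ^ (2 * n + 1) * s * s) = 0 := by
      have h5 : T (d ^ (2 * n + 1) * s * s) = T (s * (d ^ (2 * n + 1) * s)) :=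
        hT _ (S.mul_mem (S.pow_mem hdS _) hsS) _ hsS
      have h6 : s * (d ^ (2 * n + 1) * s) = -(d ^ (2 * n + 1) * s * s) := by
        rw [← mul_assoc, h3, neg_mul]
      rw [h6, map_neg] at h5
      have h7 : T (d ^ (2 * n + 1) * s * s) + T (d ^ (2 * n + 1) * s * s) = 0 := by
        nth_rewrite 1 [h5]
        simp
      have h8 : (2 : ℂ) * T (d ^ (2 * n + 1) * s * s) = 0 := by
        rw [two_mul]; exact h7
      rcases mul_eq_zero.mp h8 with h | h
      · norm_num at h
      · exact h
    have e1 : d ^ (2 * (n + 1) + 1) = d ^ (2 * n + 1) - d ^ (2 * n + 1) * s * s := by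
      rw [show 2 * (n + 1) + 1 = (2 * n + 1) + 2 by ring, pow_add, pow_two, h2, mul_sub, mul_one,
        mul_assoc]
    rw [e1, map_sub, h4, sub_zero, ih]

end Ring

end Vale.Agent.P184.BN
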