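import Vale.Agent.P184.BanOp

/-!
M3 part 3 (helper13): the trace functional.
-/

namespace Vale.Agent.P184.BN

open scoped ENNReal Topology
open Filter

variable {G : Type*} [Group G]

lemma norm_ev_ev_le (F : EE G (BB G)) (g y : G) : ‖(F.ev g).ev y‖ ≤ ‖F.ev g‖ :=
  (F.ev g).norm_ev_le y

open Classical in
lemma summ_phi (g : G) (F : EE G (BB G)) :
    Summable fun y => if IsConj g y then (F.ev y).ev y else (0 : ℂ) := by
  refine Summable.of_norm_bounded F.summ (fun y => ?_)
  split_ifs
  · exact norm_ev_ev_le F y y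
  · simp

open Classical in
/-- The functional `F ↦ sum over the class of F y y`. -/
noncomputable def phi (g : G) : EE G (BB G) →L[ℂ] ℂ :=
  LinearMap.mkContinuous
    { toFun := fun F => ∑' y, if IsConj g y then (F.ev y).ev y else 0
      map_add' := fun F F' => by
        rw [← (summ_phi g F).tsum_add (summ_phi g F')]
        apply tsum_congr
        intro y
        split_ifs
        · rw [EE.ev_add, BB.ev_add]
        · simp
      map_smul' := fun c F => by
        rw [RingHom.id_apply, smul_eq_mul, ← tsum_mul_left]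
        apply tsum_congr
        intro y
        split_ifs
        · rw [EE.ev_smul, BB.ev_smul]
        · simp }
    1 (fun F => by
      rw [one_mul, EE.norm_eq]
      simp only [LinearMap.coe_mk, AddHom.coe_mk]
      refine tsum_of_norm_bounded F.summ.hasSum (fun y => ?_)
      split_ifs
      · exact norm_ev_ev_le F y y
      · simp)

open Classical in
lemma phi_apply (g : G) (F : EE G (BB G)) :
    phi g F = ∑' y, if IsConj g y then (F.ev y).ev y else 0 := rfl

open Classical in
/-- The unit vector. -/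
noncomputable def xi : EE G (BB G) :=
  EE.mk' (fun g => if g = 1 then oneB else 0) (by
    apply summable_of_ne_finset_zero (s := {1})
    intro b hb
    rw [if_neg (by simpa using hb), norm_zero])

open Classical in
lemma xi_ev (g : G) : (xi : EE G (BB G)).ev g = if g = 1 then oneB else 0 := rfl

/-- The trace functional on operators. -/
noncomputable def T0 (g : G) : Op G →L[ℂ] ℂ :=
  (phi g).comp (ContinuousLinearMap.apply ℂ (EE G (BB G)) xi)

lemma T0_apply (g : G) (X : Op G) : T0 g X = phi g (X xi) := rfl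

open Classical in
lemma T0_V (g : G) (u : BB G) (x : G) :
    T0 g (V u x) = if IsConj g x then u.ev x else 0 := by
  rw [T0_apply, phi_apply, tsum_eq_single x]
  · by_cases h : IsConj g x
    · rw [if_pos h, if_pos h, V_ev, xi_ev, if_pos (inv_mul_cancel x), oneB_ev, mul_one]
    · rw [if_neg h, if_neg h]
  · intro y hy
    split_ifs
    · rw [V_ev, xi_ev, if_neg, BB.ev_zero, mul_zero]
      intro h
      apply hy
      have : y = x * (x⁻¹ * y) := by group
      rw [this, h, mul_one]
    · rfl

lemma T0_comm (g : G) (u u' : BB G) (x x' : G) :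
    T0 g (V u x * V u' x') = T0 g (V u' x' * V u x) := by
  classical
  rw [V_mul, V_mul, T0_V, T0_V, aop_ev, aop_ev]
  have h1 : x⁻¹ * (x * x') * x = x' * x := by group
  have h2 : x'⁻¹ * (x' * x) * x' = x * x' := by group
  rw [h1, h2]
  have h3 : IsConj g (x * x') ↔ IsConj g (x' * x) := by
    have h4 : IsConj (x * x') (x' * x) := isConj_iff.mpr ⟨x⁻¹, by group⟩
    exact ⟨fun h => h.trans h4, fun h => h.trans h4.symm⟩
  by_cases h : IsConj g (x * x')
  · rw [if_pos h, if_pos (h3.mp h), mul_comm]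
  · rw [if_neg h, if_neg (fun h' => h (h3.mpr h'))]

/-- The span of the elementary operators. -/
noncomputable def W0 : Submodule ℂ (Op G) :=
  Submodule.span ℂ {X | ∃ (u : BB G) (x : G), X = V u x}

/-- The closed span. -/
noncomputable def W : Submodule ℂ (Op G) := (W0 : Submodule ℂ (Op G)).topologicalClosure

lemma V_mem (u : BB G) (x : G) : V u x ∈ (W : Submodule ℂ (Op G)) :=
  (W0 : Submodule ℂ (Op G)).le_topologicalClosure (Submodule.subset_span ⟨u, x, rfl⟩)

lemma one_mem : (1 : Op G) ∈ (W : Submodule ℂ (Op G)) := by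
  rw [← V_one]
  exact V_mem _ _

lemma W0_mul {a b : Op G} (ha : a ∈ (W0 : Submodule ℂ (Op G)))
    (hb : b ∈ (W0 : Submodule ℂ (Op G))) : a * b ∈ (W0 : Submodule ℂ (Op G)) := by
  refine Submodule.span_induction₂ (p := fun a b _ _ => a * b ∈ (W0 : Submodule ℂ (Op G)))
    ?_ ?_ ?_ ?_ ?_ ?_ ?_ ha hb
  · rintro _ _ ⟨u, x, rfl⟩ ⟨u', x', rfl⟩
    rw [V_mul]
    exact Submodule.subset_span ⟨_, _, rfl⟩
  · intro y _
    rw [zero_mul]
    exact Submodule.zero_mem _
  · intro y _
    rw [mul_zero]
    exact Submodule.zero_mem _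
  · intro x y z _ _ _ h1 h2
    rw [add_mul]
    exact Submodule.add_mem _ h1 h2
  · intro x y z _ _ _ h1 h2
    rw [mul_add]
    exact Submodule.add_mem _ h1 h2
  · intro c x y _ _ h1
    rw [smul_mul_assoc]
    exact Submodule.smul_mem _ _ h1
  · intro c x y _ _ h1
    rw [mul_smul_comm]
    exact Submodule.smul_mem _ _ h1

lemma W0_trace (g : G) {a b : Op G} (ha : a ∈ (W0 : Submodule ℂ (Op G)))
    (hb : b ∈ (W0 : Submodule ℂ (Op G))) : T0 g (a * b) = T0 g (b * a) := by
  refine Submodule.span_induction₂ (p := fun a b _ _ => T0 g (a * b) = T0 g (b * a))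
    ?_ ?_ ?_ ?_ ?_ ?_ ?_ ha hb
  · rintro _ _ ⟨u, x, rfl⟩ ⟨u', x', rfl⟩
    exact T0_comm g u u' x x'
  · intro y _
    rw [zero_mul, mul_zero]
  · intro y _
    rw [zero_mul, mul_zero]
  · intro x y z _ _ _ h1 h2
    rw [add_mul, mul_add, map_add, map_add, h1, h2]
  · intro x y z _ _ _ h1 h2
    rw [add_mul, mul_add, map_add, map_add, h1, h2]
  · intro c x y _ _ h1
    rw [smul_mul_assoc, mul_smul_comm, map_smul, map_smul, h1]
  · intro c x y _ _ h1
    rw [smul_mul_assoc, mul_smul_comm, map_smul, map_smul, h1]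

lemma mul_mem {X Y : Op G} (hX : X ∈ (W : Submodule ℂ (Op G)))
    (hY : Y ∈ (W : Submodule ℂ (Op G))) : X * Y ∈ (W : Submodule ℂ (Op G)) := by
  have hX' : X ∈ closure ((W0 : Submodule ℂ (Op G)) : Set (Op G)) := hX
  have hY' : Y ∈ closure ((W0 : Submodule ℂ (Op G)) : Set (Op G)) := hY
  have : X * Y ∈ closure ((W0 : Submodule ℂ (Op G)) : Set (Op G)) :=
    map_mem_closure₂ continuous_mul hX' hY' (fun a ha b hb => W0_mul ha hb)
  exact this

lemma trace_comm (g : G) {X Y : Op G} (hX : X ∈ (W : Submodule ℂ (Op G)))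
    (hY : Y ∈ (W : Submodule ℂ (Op G))) : T0 g (X * Y) = T0 g (Y * X) := by
  have hcl : IsClosed {P : Op G × Op G | T0 g (P.1 * P.2) = T0 g (P.2 * P.1)} := by
    apply isClosed_eq
    · exact (T0 g).continuous.comp (continuous_fst.mul continuous_snd)
    · exact (T0 g).continuous.comp (continuous_snd.mul continuous_fst)
  have hsub : ((W0 : Submodule ℂ (Op G)) : Set (Op G)) ×ˢ
      ((W0 : Submodule ℂ (Op G)) : Set (Op G)) ⊆
      {P : Op G × Op G | T0 g (P.1 * P.2) = T0 g (P.2 * P.1)} := by
    rintro ⟨a, b⟩ ⟨ha, hb⟩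
    exact W0_trace g ha hb
  have h1 : (X, Y) ∈ closure (((W0 : Submodule ℂ (Op G)) : Set (Op G)) ×ˢ
      ((W0 : Submodule ℂ (Op G)) : Set (Op G))) := by
    rw [closure_prod_eq]
    exact ⟨hX, hY⟩
  exact closure_minimal hsub hcl h1

lemma isClosed_W : IsClosed ((W : Submodule ℂ (Op G)) : Set (Op G)) :=
  Submodule.isClosed_topologicalClosure _

end Vale.Agent.P184.BN
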