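import Vale.Agent.P184.Mods

/-! # P184, module CAT: isometric actions on CAT(0) spaces -/

namespace Vale.Agent.P184.CA

open Filter Topology Finset

universe u v

/-! ### an invariant limit on bounded sequences -/

/-- Cesaro means -/
noncomputable def ces (a : ℕ → ℝ) (N : ℕ) : ℝ := (∑ n ∈ range N, a n) / N

/-- ultrafilter limit of the Cesaro means -/
noncomputable def mean (a : ℕ → ℝ) : ℝ := limUnder (hyperfilter ℕ : Filter ℕ) (ces a)

theorem ces_bdd {a : ℕ → ℝ} {B : ℝ} (h : ∀ n, |a n| ≤ B) (N : ℕ) : |ces a N| ≤ B := by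
  have hB : 0 ≤ B := (abs_nonneg _).trans (h 0)
  unfold ces
  rcases Nat.eq_zero_or_pos N with h0 | h0
  · subst h0
    simpa using hB
  · have hN : (0 : ℝ) < N := by exact_mod_cast h0
    rw [abs_div, abs_of_pos hN, div_le_iff₀ hN]
    calc |∑ n ∈ range N, a n| ≤ ∑ n ∈ range N, |a n| := abs_sum_le_sum_abs _ _
      _ ≤ ∑ _n ∈ range N, B := sum_le_sum (fun n _ => h n)
      _ = B * N := by rw [sum_const, card_range, nsmul_eq_mul, mul_comm]

theorem tendsto_mean {a : ℕ → ℝ} {B : ℝ} (h : ∀ n, |a n| ≤ B) :
    Tendsto (ces a) (hyperfilter ℕ : Filter ℕ) (𝓝 (mean a)) := by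
  apply tendsto_nhds_limUnder
  have hc : IsCompact (Set.Icc (-B) B) := isCompact_Icc
  have hm : Set.Icc (-B) B ∈ ((hyperfilter ℕ).map (ces a) : Filter ℝ) := by
    have : ∀ N, ces a N ∈ Set.Icc (-B) B := fun N => abs_le.1 (ces_bdd h N)
    exact Filter.mem_map.2 (Filter.univ_mem' this)
  obtain ⟨x, _, hx⟩ := hc.ultrafilter_le_nhds' ((hyperfilter ℕ).map (ces a)) hm
  exact ⟨x, hx⟩

theorem mean_eq {a : ℕ → ℝ} {x : ℝ} (h : Tendsto (ces a) (hyperfilter ℕ : Filter ℕ) (𝓝 x)) :
    mean a = x := h.limUnder_eq

theorem mean_sub {a b : ℕ → ℝ} {A B : ℝ} (ha : ∀ n, |a n| ≤ A) (hb : ∀ n, |b n| ≤ B) :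
    mean (fun n => a n - b n) = mean a - mean b := by
  apply mean_eq
  have h := (tendsto_mean ha).sub (tendsto_mean hb)
  refine h.congr ?_
  intro N
  unfold ces
  rw [sum_sub_distrib, sub_div]

theorem mean_abs_le {a : ℕ → ℝ} {B : ℝ} (h : ∀ n, |a n| ≤ B) : |mean a| ≤ B :=
  le_of_tendsto (tendsto_mean h).abs (Eventually.of_forall (ces_bdd h))

theorem mean_of_tendsto {a : ℕ → ℝ} {x : ℝ} (h : Tendsto a atTop (𝓝 x)) : mean a = x := by
  apply mean_eq
  have h1 := h.cesaro
  have h2 : Tendsto (ces a) atTop (𝓝 x) := by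
    refine h1.congr ?_
    intro N
    unfold ces
    rw [div_eq_inv_mul]
  exact h2.mono_left (Nat.hyperfilter_le_atTop)

/-! ### geometry -/

variable {X : Type v} [MetricSpace X]

theorem four_point (hX : CN X) (a b c d : X) :
    dist a c ^ 2 + dist b d ^ 2 ≤ dist a b ^ 2 + dist b c ^ 2 + dist c d ^ 2 + dist d a ^ 2 := by
  obtain ⟨m, hm⟩ := hX a c
  have h1 := hm b
  have h2 := hm d
  have h3 : dist b d ≤ dist b m + dist d m := by
    have := dist_triangle b m d
    rwa [dist_comm m d] at this
  have h4 : dist b d ^ 2 ≤ 2 * (dist b m ^ 2 + dist d m ^ 2) := by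
    have h5 : dist b d ^ 2 ≤ (dist b m + dist d m) ^ 2 := pow_le_pow_left₀ dist_nonneg h3 2
    nlinarith [sq_nonneg (dist b m - dist d m)]
  rw [dist_comm b a] at h1
  rw [dist_comm d c] at h2
  linarith

theorem one_side (hX : CN X) (p q s s' : X) (K : ℝ) (hK : dist s s' = K) :
    ((dist p s - dist q s) - (dist p s' - dist q s')) * (dist p s + dist q s) ≤
      dist p q ^ 2 + K ^ 2 + 2 * K * dist p q := by
  have h := four_point hX p q s s'
  rw [hK, dist_comm s' p] at h
  have hK0 : 0 ≤ K := by rw [← hK]; exact dist_nonneg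
  have h1 : |dist p s' - dist q s'| ≤ dist p q := abs_dist_sub_le p q s'
  have h2 : |(dist p s + dist q s) - (dist p s' + dist q s')| ≤ 2 * K := by
    have e1 : |dist p s - dist p s'| ≤ K := by
      rw [dist_comm p s, dist_comm p s', ← hK]
      exact abs_dist_sub_le s s' p
    have e2 : |dist q s - dist q s'| ≤ K := by
      rw [dist_comm q s, dist_comm q s', ← hK]
      exact abs_dist_sub_le s s' q
    have e3 : (dist p s + dist q s) - (dist p s' + dist q s') =
        (dist p s - dist p s') + (dist q s - dist q s') := by ring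
    rw [e3]
    have := abs_add_le (dist p s - dist p s') (dist q s - dist q s')
    linarith
  have h3 : -((dist p s' - dist q s') * ((dist p s + dist q s) - (dist p s' + dist q s'))) ≤
      2 * K * dist p q := by
    have h4 : |(dist p s' - dist q s') * ((dist p s + dist q s) - (dist p s' + dist q s'))| ≤
        dist p q * (2 * K) := by
      rw [abs_mul]
      exact mul_le_mul h1 h2 (abs_nonneg _) dist_nonneg
    have h5 := neg_abs_le
      ((dist p s' - dist q s') * ((dist p s + dist q s) - (dist p s' + dist q s')))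
    linarith
  nlinarith

theorem two_side (hX : CN X) (p q s s' : X) (K : ℝ) (hK : dist s s' = K) :
    |(dist p s - dist q s) - (dist p s' - dist q s')| * (dist p s + dist q s) ≤
      dist p q ^ 2 + K ^ 2 + 2 * K * dist p q := by
  have h1 := one_side hX p q s s' K hK
  have h2 := one_side hX q p s s' K hK
  rw [dist_comm q p] at h2
  rcases abs_cases ((dist p s - dist q s) - (dist p s' - dist q s')) with ⟨h, _⟩ | ⟨h, _⟩
  · rw [h]; exact h1
  · rw [h]
    nlinarith

theorem cat_proof : CAT.{u, v} := by
  intro G _ X _ hX ρ hmul hone hiso g o ⟨c, hc, hcn⟩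
  -- basic notation
  set s : ℕ → X := fun n => ρ (g ^ n) o with hs
  set D : X → ℕ → ℝ := fun p n => dist p (s n) - dist o (s n) with hD
  set f : X → ℝ := fun p => mean (D p) with hf
  have hDb : ∀ p n, |D p n| ≤ dist p o := fun p n => abs_dist_sub_le p o (s n)
  have hinv : ∀ x p, ρ x⁻¹ (ρ x p) = p := by
    intro x p
    rw [← hmul, inv_mul_cancel, hone]
  have hfo : f o = 0 := by
    have : D o = fun _ => (0 : ℝ) := by
      funext n
      simp only [hD, sub_self]
    simp only [hf, this]
    exact mean_of_tendsto tendsto_const_nhds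
  have hfsub : ∀ p q, f p - f q = mean (fun n => dist p (s n) - dist q (s n)) := by
    intro p q
    rw [hf]
    simp only
    rw [← mean_sub (hDb p) (hDb q)]
    congr 1
    funext n
    simp only [hD]
    ring
  -- the distances tend to infinity
  have hcn' : ∀ n : ℕ, c * n ≤ dist o (s n) := fun n => by
    rw [dist_comm]
    exact hcn n
  -- independence of the base point
  have hind : ∀ x, Commute x g → ∀ p q, f (ρ x p) - f (ρ x q) = f p - f q := by
    intro x hx p q
    rw [hfsub, hfsub]
    set K := dist (ρ x⁻¹ o) o with hK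
    have hs' : ∀ n p, dist (ρ x p) (s n) = dist p (ρ (g ^ n) (ρ x⁻¹ o)) := by
      intro n p
      rw [← hmul]
      have h1 : Commute x⁻¹ (g ^ n) := (hx.inv_left).pow_right n
      rw [← h1.eq, hmul, ← hiso x⁻¹ (ρ x p) (s n), hinv]
    have hKn : ∀ n, dist (s n) (ρ (g ^ n) (ρ x⁻¹ o)) = K := by
      intro n
      rw [hs]
      simp only
      rw [hiso, dist_comm]
    have h0 : Tendsto (fun n => (dist p (s n) - dist q (s n)) -
        (dist (ρ x p) (s n) - dist (ρ x q) (s n))) atTop (𝓝 0) := by
      set M := dist p q ^ 2 + K ^ 2 + 2 * K * dist p q with hM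
      have hlow : ∀ n : ℕ, c * n - dist o p ≤ dist p (s n) + dist q (s n) := by
        intro n
        have h1 := hcn' n
        have h2 := dist_triangle o p (s n)
        have h3 : 0 ≤ dist q (s n) := dist_nonneg
        linarith
      have hb : ∀ n : ℕ, |(dist p (s n) - dist q (s n)) -
          (dist (ρ x p) (s n) - dist (ρ x q) (s n))| * (c * n - dist o p) ≤ M := by
        intro n
        have h1 := two_side hX p q (s n) (ρ (g ^ n) (ρ x⁻¹ o)) K (hKn n)
        rw [hs' n p, hs' n q]
        exact (mul_le_mul_of_nonneg_left (hlow n) (abs_nonneg _)).trans h1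
      have hden : Tendsto (fun n : ℕ => c * n - dist o p) atTop atTop := by
        apply tendsto_atTop_add_const_right
        exact (tendsto_natCast_atTop_atTop).const_mul_atTop hc
      have hq0 : Tendsto (fun n : ℕ => M / (c * n - dist o p)) atTop (𝓝 0) :=
        hden.const_div_atTop M
      rw [tendsto_zero_iff_abs_tendsto_zero]
      refine squeeze_zero' (Eventually.of_forall fun n => abs_nonneg _) ?_ hq0
      filter_upwards [hden.eventually_gt_atTop 0] with n hn
      rw [Function.comp_apply, le_div_iff₀ hn]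
      exact hb n
    have h1 := mean_of_tendsto h0
    rw [mean_sub (A := dist p q) (B := dist p q)] at h1
    · linarith
    · intro n
      exact abs_dist_sub_le p q (s n)
    · intro n
      have := abs_dist_sub_le (ρ x p) (ρ x q) (s n)
      rwa [hiso] at this
  refine ⟨fun x => dist (ρ x o) o, fun x => f (ρ x o), 0, ⟨fun x => dist_nonneg, ?_, ?_⟩, ?_, ?_, ?_⟩
  · intro x
    rw [← hiso x (ρ x⁻¹ o) o, ← hmul, mul_inv_cancel, hone, dist_comm]
  · intro x y
    rw [hmul]
    have h1 := dist_triangle (ρ x (ρ y o)) (ρ x o) o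
    rw [hiso] at h1
    linarith
  · intro k k' hk hk'
    change f (ρ (k * k') o) = f (ρ k o) + f (ρ k' o)
    rw [hmul]
    have h1 := hind k hk (ρ k' o) o
    rw [hfo] at h1
    linarith
  · intro k _
    rw [zero_add]
    exact (le_abs_self _).trans (mean_abs_le (hDb (ρ k o)))
  · -- the value at `g` is negative
    have hle : f (ρ g o) ≤ -c := by
      have ht := tendsto_mean (hDb (ρ g o))
      have hces : ∀ N : ℕ, ces (D (ρ g o)) (N + 1) =
          (dist (ρ g o) o - dist o (s N)) / ((N + 1 : ℕ) : ℝ) := by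
        intro N
        unfold ces
        congr 1
        induction N with
        | zero =>
          rw [zero_add, sum_range_one]
          simp only [hD, hs, pow_zero, hone]
        | succ N ih =>
          rw [sum_range_succ, ih]
          have h1 : dist (ρ g o) (s (N + 1)) = dist o (s N) := by
            simp only [hs]
            rw [pow_succ', hmul, hiso]
          simp only [hD]
          rw [h1]
          ring
      have hup : Tendsto (fun N : ℕ => (dist (ρ g o) o + c) / (N : ℝ) - c)
          (hyperfilter ℕ : Filter ℕ) (𝓝 (-c)) := by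
        have h1 : Tendsto (fun N : ℕ => (dist (ρ g o) o + c) / (N : ℝ)) atTop (𝓝 0) :=
          tendsto_natCast_atTop_atTop.const_div_atTop _
        have h2 := (h1.sub_const c)
        rw [zero_sub] at h2
        exact h2.mono_left Nat.hyperfilter_le_atTop
      refine le_of_tendsto_of_tendsto ht hup ?_
      have h1 : ∀ᶠ N : ℕ in atTop, ces (D (ρ g o)) N ≤ (dist (ρ g o) o + c) / (N : ℝ) - c := by
        filter_upwards [eventually_ge_atTop 1] with N hN
        obtain ⟨M, rfl⟩ : ∃ M, N = M + 1 := ⟨N - 1, by omega⟩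
        rw [hces]
        have hpos : (0 : ℝ) < ((M + 1 : ℕ) : ℝ) := by positivity
        have h2 : (dist (ρ g o) o + c) / ((M + 1 : ℕ) : ℝ) - c =
            (dist (ρ g o) o + c - c * ((M + 1 : ℕ) : ℝ)) / ((M + 1 : ℕ) : ℝ) := by
          field_simp
        rw [h2]
        apply div_le_div_of_nonneg_right _ hpos.le
        have h3 := hcn' M
        push_cast
        linarith
      exact h1.filter_mono Nat.hyperfilter_le_atTop
    intro h0
    linarith

end Vale.Agent.P184.CA
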