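import Vale.Agent.P184.Mods

/-!
P184, module CHARP (helper15).
-/

namespace Vale.Agent.P184.CharP

universe u v

open Polynomial Matrix

/-- a common exponent for finitely many roots of unity -/
theorem exists_common {F : Type v} [Field F] (s : Multiset F)
    (hs : ∀ μ ∈ s, ∃ m : ℕ, 0 < m ∧ μ ^ m = 1) : ∃ m : ℕ, 0 < m ∧ ∀ μ ∈ s, μ ^ m = 1 := by
  induction s using Multiset.induction_on with
  | empty => exact ⟨1, Nat.one_pos, by simp⟩
  | cons a s ih =>
    obtain ⟨m, hm, hm1⟩ := ih fun μ hμ => hs μ (Multiset.mem_cons_of_mem hμ)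
    obtain ⟨k, hk, hk1⟩ := hs a (Multiset.mem_cons_self a s)
    refine ⟨k * m, Nat.mul_pos hk hm, ?_⟩
    intro μ hμ
    rcases Multiset.mem_cons.mp hμ with h | h
    · rw [h, pow_mul, hk1, one_pow]
    · rw [mul_comm, pow_mul, hm1 μ h, one_pow]

/-- A matrix all of whose eigenvalues are roots of unity has finite order in positive
characteristic. -/
theorem exists_pow_eq_one (p : ℕ) [Fact p.Prime] {F : Type v} [Field F] [CharP F p]
    [IsAlgClosed F] {n : ℕ} (M : Matrix (Fin n) (Fin n) F)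
    (h : ∀ μ ∈ M.charpoly.roots, ∃ m : ℕ, 0 < m ∧ μ ^ m = 1) :
    ∃ m : ℕ, 0 < m ∧ M ^ m = 1 := by
  obtain ⟨m, hm, hm1⟩ := exists_common _ h
  have hdvd : M.charpoly ∣ (X ^ m - 1) ^ (M.charpoly.roots.card) := by
    have h1 : M.charpoly = (M.charpoly.roots.map fun a => X - C a).prod :=
      (IsAlgClosed.splits M.charpoly).eq_prod_roots_of_monic (M.charpoly_monic)
    have h2 : (M.charpoly.roots.map fun a => X - C a).prod ∣
        (M.charpoly.roots.map fun _ => (X ^ m - 1 : F[X])).prod := by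
      refine Multiset.prod_dvd_prod_of_dvd _ _ ?_
      intro a ha
      rw [dvd_iff_isRoot]
      simp [IsRoot, hm1 a ha]
    rw [Multiset.map_const', Multiset.prod_replicate] at h2
    rw [← h1] at h2
    exact h2
  obtain ⟨q, hq⟩ := hdvd
  have h0 : (M ^ m - 1) ^ (M.charpoly.roots.card) = 0 := by
    have h3 := congrArg (aeval M) hq
    rw [map_mul, M.aeval_self_charpoly, zero_mul] at h3
    simpa using h3
  obtain ⟨k, hk⟩ : ∃ k : ℕ, M.charpoly.roots.card ≤ p ^ k :=
    ⟨M.charpoly.roots.card, (Nat.lt_pow_self (Fact.out : p.Prime).one_lt).le⟩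
  have h4 : (M ^ m - 1) ^ (p ^ k) = 0 := pow_eq_zero_of_le hk h0
  have h5 : (M ^ m - 1) ^ (p ^ k) = (M ^ m) ^ (p ^ k) - 1 ^ (p ^ k) := by
    have : CharP (Matrix (Fin n) (Fin n) F) p ∨ n = 0 := by
      rcases Nat.eq_zero_or_pos n with h | h
      · exact Or.inr h
      · have : Nonempty (Fin n) := ⟨⟨0, h⟩⟩
        exact Or.inl inferInstance
    rcases this with h | h
    · exact sub_pow_char_pow_of_commute (p := p) _ (Commute.one_right _)
    · subst h
      exact Subsingleton.elim _ _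
  refine ⟨m * p ^ k, Nat.mul_pos hm (pow_pos (Fact.out : p.Prime).pos _), ?_⟩
  rw [h4, one_pow] at h5
  rw [pow_mul]
  exact (sub_eq_zero.mp h5.symm)

theorem charp_of (HL : LIN.{u, v}) (HA : ABSVAL.{v}) : CHARP.{u, v} := by
  intro G _ p _ K _ _ n ρ g hg
  classical
  let Kb := AlgebraicClosure K
  have : CharP Kb p := charP_of_injective_algebraMap (algebraMap K Kb).injective p
  let φ : K →+* Kb := algebraMap K Kb
  let M : Matrix (Fin n) (Fin n) Kb := ((ρ g : GL (Fin n) K) : Matrix (Fin n) (Fin n) K).map φ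
  have hex : ∃ μ ∈ M.charpoly.roots, ∀ m : ℕ, 0 < m → μ ^ m ≠ 1 := by
    by_contra hcon
    push Not at hcon
    obtain ⟨m, hm, hm1⟩ := exists_pow_eq_one p M hcon
    apply hg m hm
    apply Units.ext
    have hinj : Function.Injective (φ.mapMatrix : Matrix (Fin n) (Fin n) K →+* _) := by
      intro A B hAB
      ext i j
      have := congrFun (congrFun hAB i) j
      exact φ.injective this
    apply hinj
    rw [Units.val_pow_eq_pow_val, map_pow, Units.val_one, map_one]
    exact hm1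
  obtain ⟨μ, hμ, hμ1⟩ := hex
  have hroot : M.charpoly.IsRoot μ := isRoot_of_mem_roots hμ
  have hdet : (Matrix.scalar (Fin n) μ - M).det = 0 := by
    rw [← Matrix.eval_charpoly]
    exact hroot
  obtain ⟨w, hw0, hw⟩ := Matrix.exists_mulVec_eq_zero_iff.mpr hdet
  have hMw : M.mulVec w = μ • w := by
    rw [Matrix.sub_mulVec, sub_eq_zero] at hw
    rw [← hw]
    ext i
    simp [Matrix.scalar_apply, Matrix.mulVec_diagonal]
  have hμ0 : μ ≠ 0 := by
    intro h0
    rw [h0, zero_smul] at hMw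
    apply hw0
    have hMinv : ((((ρ g)⁻¹ : GL (Fin n) K)) : Matrix (Fin n) (Fin n) K).map φ * M = 1 := by
      have h1 : (((ρ g)⁻¹ : GL (Fin n) K) : Matrix (Fin n) (Fin n) K) *
          ((ρ g : GL (Fin n) K) : Matrix (Fin n) (Fin n) K) = 1 := by
        rw [← Units.val_mul, inv_mul_cancel, Units.val_one]
      have h2 := congrArg (φ.mapMatrix) h1
      rw [map_mul, map_one] at h2
      exact h2
    calc w = (1 : Matrix (Fin n) (Fin n) Kb).mulVec w := by rw [Matrix.one_mulVec]
      _ = 0 := by rw [← hMinv, ← Matrix.mulVec_mulVec, hMw, Matrix.mulVec_zero]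
  obtain ⟨Ω, _, a, ι, hι⟩ := HA p Kb μ hμ0 hμ1
  refine HL G Ω a n ((Matrix.GeneralLinearGroup.map (ι.comp φ)).comp ρ) g (ι μ)
    (fun i => ι (w i)) ?_ ?_ hι
  · intro h0
    apply hw0
    ext i
    have := congrFun h0 i
    simpa using this
  · ext i
    have h1 := RingHom.map_mulVec ι M w i
    rw [hMw] at h1
    simp only [Pi.smul_apply, smul_eq_mul, map_mul] at h1
    simp only [Pi.smul_apply, smul_eq_mul]
    rw [h1]
    congr 1

end Vale.Agent.P184.CharP
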