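import Vale.Agent.P184.Mods

/-!
P184, module MCSHANE (helper15).
-/

namespace Vale.Agent.P184.McShane

universe u

variable {G : Type u} [Group G]

theorem h_one {g : G} {h : G → ℝ}
    (hh : ∀ k k', Commute k g → Commute k' g → h (k * k') = h k + h k') : h 1 = 0 := by
  have := hh 1 1 (Commute.one_left g) (Commute.one_left g)
  rw [one_mul] at this
  linarith

theorem h_inv {g : G} {h : G → ℝ}
    (hh : ∀ k k', Commute k g → Commute k' g → h (k * k') = h k + h k') {k : G}
    (hk : Commute k g) : h k⁻¹ = - h k := by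
  have := hh k k⁻¹ hk hk.inv_left
  rw [mul_inv_cancel, h_one hh] at this
  linarith

theorem h_pow {g : G} {h : G → ℝ}
    (hh : ∀ k k', Commute k g → Commute k' g → h (k * k') = h k + h k') {k : G}
    (hk : Commute k g) (n : ℕ) : h (k ^ n) = n * h k := by
  induction n with
  | zero => simp [h_one hh]
  | succ n ih =>
    rw [pow_succ, hh _ _ (hk.pow_left n) hk, ih]
    push_cast
    ring

theorem L_pow {L : G → ℝ} (hL : IsLength L) (k : G) (n : ℕ) : L (k ^ (n + 1)) ≤ (n + 1) * L k := by
  induction n with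
  | zero => simp
  | succ n ih =>
    rw [pow_succ]
    have := hL.mul (k ^ (n + 1)) k
    push_cast
    linarith

theorem h_le {g : G} {L h : G → ℝ} {A : ℝ} (hL : IsLength L)
    (hh : ∀ k k', Commute k g → Commute k' g → h (k * k') = h k + h k')
    (hA : ∀ k, Commute k g → h k ≤ A + L k) {k : G} (hk : Commute k g) : h k ≤ L k := by
  by_contra hcon
  push Not at hcon
  obtain ⟨n, hn⟩ := exists_nat_gt (A / (h k - L k))
  have hpos : 0 < h k - L k := by linarith
  rw [div_lt_iff₀ hpos] at hn
  have h1 := hA (k ^ (n + 1)) (hk.pow_left _)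
  have h2 := L_pow hL k n
  rw [h_pow hh hk] at h1
  push_cast at h1
  nlinarith

theorem mcshane_proof : MCSHANE.{u} := by
  intro G _ g L h A hL hh hA
  have hle : ∀ k, Commute k g → h k ≤ L k := fun k hk => h_le hL hh hA hk
  have hlow : ∀ k, Commute k g → ∀ p, - L p ≤ h k + L (p * k⁻¹) := by
    intro k hk p
    have h1 := hle k⁻¹ hk.inv_left
    rw [h_inv hh hk, hL.inv] at h1
    have h2 := hL.mul p⁻¹ (p * k⁻¹)
    rw [inv_mul_cancel_left, hL.inv, hL.inv] at h2
    linarith
  let c : G → ℝ := fun p => ⨅ k : {k : G // Commute k g}, h k + L (p * (k : G)⁻¹)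
  have hbdd : ∀ p, BddBelow (Set.range fun k : {k : G // Commute k g} => h k + L (p * (k : G)⁻¹)) := by
    intro p
    refine ⟨- L p, ?_⟩
    rintro _ ⟨k, rfl⟩
    exact hlow k k.2 p
  have : Nonempty {k : G // Commute k g} := ⟨⟨1, Commute.one_left g⟩⟩
  have hcle : ∀ p k, Commute k g → c p ≤ h k + L (p * k⁻¹) := by
    intro p k hk
    exact ciInf_le (hbdd p) (⟨k, hk⟩ : {k : G // Commute k g})
  have key1 : ∀ p k, Commute k g → c (p * k) ≤ c p + h k := by
    intro p k hk
    rw [← sub_le_iff_le_add]
    refine le_ciInf ?_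
    intro j
    have := hcle (p * k) (j * k) (j.2.mul_left hk)
    rw [hh _ _ j.2 hk, mul_inv_rev, mul_assoc, mul_inv_cancel_left] at this
    linarith
  have key2 : ∀ x p, c (x * p) ≤ c p + L x := by
    intro x p
    rw [← sub_le_iff_le_add]
    refine le_ciInf ?_
    intro j
    have := hcle (x * p) j j.2
    have h2 := hL.mul x (p * (j : G)⁻¹)
    rw [← mul_assoc] at h2
    linarith
  refine ⟨c, ?_, ?_⟩
  · intro p k hk
    refine le_antisymm (key1 p k hk) ?_
    have := key1 (p * k) k⁻¹ hk.inv_left
    rw [mul_inv_cancel_right, h_inv hh hk] at this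
    linarith
  · intro x p
    rw [abs_le]
    constructor
    · have := key2 x⁻¹ (x * p)
      rw [inv_mul_cancel_left, hL.inv] at this
      linarith
    · have := key2 x p
      linarith

end Vale.Agent.P184.McShane
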