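import Vale.Agent.P184.Mods
import Vale.Agent.P184.McShane

/-!
P184, module COC (helper15).
-/

namespace Vale.Agent.P184.Coc

universe u

theorem coc_of (HM : MCSHANE.{u}) : COC.{u} := by
  intro G _ g L h A hL hh hA
  obtain ⟨c, hc1, hc2⟩ := HM G g L h A hL hh hA
  have hex : ∀ y : G, ∃ p : G, IsConj g y → p * g * p⁻¹ = y := by
    intro y
    by_cases hy : IsConj g y
    · obtain ⟨p, hp⟩ := isConj_iff.mp hy
      exact ⟨p, fun _ => hp⟩
    · exact ⟨1, fun h => absurd h hy⟩
  choose p hp using hex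
  classical
  let b : G → G → ℝ := fun x y => if IsConj g y then c (p y) - c (x⁻¹ * p y) else 0
  have hconj : ∀ x y : G, IsConj g (x⁻¹ * y * x) ↔ IsConj g y := by
    intro x y
    have h1 : IsConj y (x⁻¹ * y * x) := isConj_iff.mpr ⟨x⁻¹, by rw [inv_inv]⟩
    constructor
    · intro h2
      exact h2.trans h1.symm
    · intro h2
      exact h2.trans h1
  refine ⟨b, ?_, ?_, ?_⟩
  · intro x x' y
    by_cases hy : IsConj g y
    · have hz : IsConj g (x⁻¹ * y * x) := (hconj x y).mpr hy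
      simp only [b, if_pos hy, if_pos hz]
      have hk : Commute ((p (x⁻¹ * y * x))⁻¹ * (x⁻¹ * p y)) g := by
        have h1 := hp y hy
        have h2 := hp _ hz
        have h3 : p (x⁻¹ * y * x) * g * (p (x⁻¹ * y * x))⁻¹ = x⁻¹ * (p y * g * (p y)⁻¹) * x := by
          rw [h1, h2]
        have h4 : g = (p (x⁻¹ * y * x))⁻¹ * (x⁻¹ * (p y * g * (p y)⁻¹) * x) * p (x⁻¹ * y * x) := by
          rw [← h3]
          group
        rw [commute_iff_eq]
        calc (p (x⁻¹ * y * x))⁻¹ * (x⁻¹ * p y) * g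
            = ((p (x⁻¹ * y * x))⁻¹ * (x⁻¹ * (p y * g * (p y)⁻¹) * x) * p (x⁻¹ * y * x)) *
                ((p (x⁻¹ * y * x))⁻¹ * (x⁻¹ * p y)) := by group
          _ = g * ((p (x⁻¹ * y * x))⁻¹ * (x⁻¹ * p y)) := by rw [← h4]
      have e1 : c (x⁻¹ * p y) = c (p (x⁻¹ * y * x)) +
          h ((p (x⁻¹ * y * x))⁻¹ * (x⁻¹ * p y)) := by
        rw [← hc1 _ _ hk, mul_inv_cancel_left]
      have e2 : c ((x * x')⁻¹ * p y) = c (x'⁻¹ * p (x⁻¹ * y * x)) +
          h ((p (x⁻¹ * y * x))⁻¹ * (x⁻¹ * p y)) := by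
        rw [← hc1 _ _ hk]
        congr 1
        group
      rw [e1, e2]
      ring
    · have hz : ¬ IsConj g (x⁻¹ * y * x) := fun h1 => hy ((hconj x y).mp h1)
      simp only [b, if_neg hy, if_neg hz]
      ring
  · intro x y
    by_cases hy : IsConj g y
    · simp only [b, if_pos hy]
      rw [abs_sub_comm]
      have := hc2 x⁻¹ (p y)
      rwa [hL.inv] at this
    · simp only [b, if_neg hy, abs_zero]
      exact hL.nonneg x
  · intro y hy
    simp only [b, if_pos hy]
    have e1 : c (p y) = c (y⁻¹ * p y) + h g := by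
      rw [← hc1 _ _ (Commute.refl g)]
      congr 1
      have h1 := hp y hy
      calc p y = y⁻¹ * (y * p y) := by rw [inv_mul_cancel_left]
        _ = y⁻¹ * ((p y * g * (p y)⁻¹) * p y) := by rw [h1]
        _ = y⁻¹ * p y * g := by group
    rw [e1]
    ring

theorem coc_proof : COC.{u} := coc_of McShane.mcshane_proof

end Vale.Agent.P184.Coc
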