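import Vale.Agent.P184.Mods

/-!
M4 (helper13): the criterion.
-/

namespace Vale.Agent.P184.CR

universe u

theorem core_proof (hC : COC.{u}) (hB : BAN.{u}) : CORE.{u} := by
  intro G _ g hg q e he
  obtain ⟨L, h, A, hL, hh, hA, h0⟩ := hg
  obtain ⟨b, hb1, hb2, hb3⟩ := hC G g L h A hL hh hA
  exact hB G g L b (h g) hb1 hb2 hb3 h0 q e he

end Vale.Agent.P184.CR
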