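import Mathlib

/-!
P184 (helper13).  Definitions: idempotent matrices over the l1-algebra of a discrete group and
the coefficients of their Hattori-Stallings trace.
-/

namespace Vale.Agent.P184

/-- `e` is an idempotent `q × q` matrix over `ℓ¹(G)`: the entries are absolutely summable functions
`G → ℂ` and `e * e = e` for the convolution product. -/
structure IsIdem {G : Type*} [Group G] {q : ℕ} (e : Fin q → Fin q → G → ℂ) : Prop where
  summable : ∀ i j, Summable fun g => ‖e i j g‖
  idem : ∀ i j g, ∑ k, ∑' h, e i k h * e k j (h⁻¹ * g) = e i j g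

/-- The coefficient at the conjugacy class `C` of the Hattori-Stallings trace of `e`. -/
noncomputable def tau {G : Type*} [Group G] {q : ℕ} (e : Fin q → Fin q → G → ℂ)
    (C : ConjClasses G) : ℂ :=
  ∑' g : C.carrier, ∑ i, e i i (g : G)

/-- Q1 for the group `G`: for every idempotent matrix over `ℓ¹(G)` the trace coefficients vanish
outside a finite set of conjugacy classes of elements of finite order. -/
def BassQ1 (G : Type*) [Group G] : Prop :=
  ∀ (q : ℕ) (e : Fin q → Fin q → G → ℂ), IsIdem e →
    ∃ F : Set (ConjClasses G), F.Finite ∧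
      (∀ C ∈ F, ∃ g : G, IsOfFinOrder g ∧ ConjClasses.mk g = C) ∧ ∀ C ∉ F, tau e C = 0

/-- `G` has only finitely many conjugacy classes of elements of finite order. -/
def FinTors (G : Type*) [Group G] : Prop :=
  {C : ConjClasses G | ∃ g : G, IsOfFinOrder g ∧ ConjClasses.mk g = C}.Finite

/-- `L` is a length function on `G`. -/
structure IsLength {G : Type*} [Group G] (L : G → ℝ) : Prop where
  nonneg : ∀ x, 0 ≤ L x
  inv : ∀ x, L x⁻¹ = L x
  mul : ∀ x y, L (x * y) ≤ L x + L y

/-- The criterion: there is a homomorphism from the centralizer of `g` to the reals which does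
not vanish at `g` and which is bounded by a length function of the whole group. -/
def Crit {G : Type*} [Group G] (g : G) : Prop :=
  ∃ (L h : G → ℝ) (A : ℝ), IsLength L ∧
    (∀ k k', Commute k g → Commute k' g → h (k * k') = h k + h k') ∧
    (∀ k, Commute k g → h k ≤ A + L k) ∧ h g ≠ 0

/-- Bounded real functions. -/
def Bdd {H : Type*} (f : H → ℝ) : Prop := ∃ B : ℝ, ∀ x, |f x| ≤ B

/-- `H` is amenable: there is a left invariant mean on the bounded functions of `H`. -/
def IsAmenable (H : Type*) [Group H] : Prop :=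
  ∃ m : (H → ℝ) → ℝ,
    (∀ f f', Bdd f → Bdd f' → m (fun x => f x + f' x) = m f + m f') ∧
    (∀ (a : ℝ) f, Bdd f → m (fun x => a * f x) = a * m f) ∧
    (∀ f, Bdd f → (∀ x, 0 ≤ f x) → 0 ≤ m f) ∧
    m (fun _ => 1) = 1 ∧
    ∀ (y : H) f, Bdd f → m (fun x => f (y⁻¹ * x)) = m f

/-- The CN inequality of Bruhat and Tits: it holds in every CAT(0) space (and characterizes
complete CAT(0) spaces). -/
def CN (X : Type*) [MetricSpace X] : Prop :=
  ∀ x y : X, ∃ m : X, ∀ z : X,
    dist z m ^ 2 ≤ (dist z x ^ 2 + dist z y ^ 2) / 2 - dist x y ^ 2 / 4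

end Vale.Agent.P184
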