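import Vale.Agent.P184.Mods

/-! P184, module LIN: linear groups over fields with an absolute value. -/

namespace Vale.Agent.P184.Lin

open Vale.Agent.P184 Matrix

universe u v

section

variable {K : Type v} [Field K] (a : AbsoluteValue K ℝ)

/-- sum of the absolute values of the entries -/
noncomputable def nrm {m l : ℕ} (M : Matrix (Fin m) (Fin l) K) : ℝ := ∑ i, ∑ j, a (M i j)

theorem nrm_nonneg {m l : ℕ} (M : Matrix (Fin m) (Fin l) K) : 0 ≤ nrm a M :=
  Finset.sum_nonneg fun _ _ => Finset.sum_nonneg fun _ _ => a.nonneg _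

theorem row_le {m l : ℕ} (M : Matrix (Fin m) (Fin l) K) (i : Fin m) :
    ∑ j, a (M i j) ≤ nrm a M :=
  Finset.single_le_sum (f := fun i' => ∑ j', a (M i' j'))
    (fun _ _ => Finset.sum_nonneg fun _ _ => a.nonneg _) (Finset.mem_univ i)

theorem entry_le {m l : ℕ} (M : Matrix (Fin m) (Fin l) K) (i : Fin m) (j : Fin l) :
    a (M i j) ≤ nrm a M :=
  (Finset.single_le_sum (f := fun j' => a (M i j')) (fun _ _ => a.nonneg _)
    (Finset.mem_univ j)).trans (row_le a M i)

theorem nrm_mul {m l r : ℕ} (M : Matrix (Fin m) (Fin l) K) (M' : Matrix (Fin l) (Fin r) K) :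
    nrm a (M * M') ≤ nrm a M * nrm a M' := by
  have h1 : ∀ i j, a ((M * M') i j) ≤ ∑ q, a (M i q) * a (M' q j) := by
    intro i j
    rw [Matrix.mul_apply]
    refine (a.sum_le Finset.univ _).trans (le_of_eq ?_)
    exact Finset.sum_congr rfl fun q _ => a.map_mul _ _
  calc nrm a (M * M') ≤ ∑ i, ∑ j, ∑ q, a (M i q) * a (M' q j) :=
        Finset.sum_le_sum fun i _ => Finset.sum_le_sum fun j _ => h1 i j
    _ = ∑ i, ∑ q, a (M i q) * ∑ j, a (M' q j) := by
        apply Finset.sum_congr rfl
        intro i _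
        rw [Finset.sum_comm]
        exact Finset.sum_congr rfl fun q _ => by rw [Finset.mul_sum]
    _ ≤ ∑ i, ∑ q, a (M i q) * nrm a M' :=
        Finset.sum_le_sum fun i _ => Finset.sum_le_sum fun q _ =>
          mul_le_mul_of_nonneg_left (row_le a M' q) (a.nonneg _)
    _ = nrm a M * nrm a M' := by
        unfold nrm
        rw [Finset.sum_mul]
        exact Finset.sum_congr rfl fun i _ => by rw [Finset.sum_mul]

end

/-- the eigenspace data in matrix form -/
theorem exists_block {K : Type v} [Field K] {n : ℕ} (R : Matrix (Fin n) (Fin n) K) (μ : K)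
    (w : Fin n → K) (hw : w ≠ 0) (hR : R.mulVec w = μ • w) :
    ∃ (k : ℕ) (I : Matrix (Fin n) (Fin k) K) (P : Matrix (Fin k) (Fin n) K), 1 ≤ k ∧
      P * I = 1 ∧ R * I = μ • I ∧
      ∀ M : Matrix (Fin n) (Fin n) K, M * R = R * M → M * I = I * (P * M * I) := by
  classical
  let f : (Fin n → K) →ₗ[K] (Fin n → K) := Matrix.toLin' R
  let E : Submodule K (Fin n → K) := Module.End.eigenspace f μ
  have hwE : w ∈ E := by
    rw [Module.End.mem_eigenspace_iff]
    exact hR
  let b := Module.finBasis K E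
  let ι : (Fin (Module.finrank K E) → K) →ₗ[K] (Fin n → K) :=
    E.subtype ∘ₗ (b.equivFun.symm : (Fin (Module.finrank K E) → K) →ₗ[K] E)
  have hι : Function.Injective ι := by
    intro x y hxy
    exact b.equivFun.symm.injective (Subtype.ext hxy)
  obtain ⟨π, hπ⟩ := ι.exists_leftInverse_of_injective (LinearMap.ker_eq_bot.2 hι)
  have hrange : ∀ v ∈ E, ι (π v) = v := by
    intro v hv
    have h1 : v = ι (b.equivFun ⟨v, hv⟩) := by
      change v = ((b.equivFun.symm (b.equivFun ⟨v, hv⟩) : E) : Fin n → K)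
      rw [LinearEquiv.symm_apply_apply]
    have h2 : π (ι (b.equivFun ⟨v, hv⟩)) = b.equivFun ⟨v, hv⟩ := by
      have := congrArg (fun g => g (b.equivFun ⟨v, hv⟩)) hπ
      simpa using this
    rw [h1, h2]
  have hιE : ∀ x, ι x ∈ E := fun x => (b.equivFun.symm x).2
  refine ⟨Module.finrank K E, LinearMap.toMatrix' ι, LinearMap.toMatrix' π, ?_, ?_, ?_, ?_⟩
  · have : 0 < Module.finrank K E := by
      rw [Module.finrank_pos_iff_exists_ne_zero]
      exact ⟨⟨w, hwE⟩, fun h => hw (congrArg Subtype.val h)⟩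
    exact this
  · rw [← LinearMap.toMatrix'_comp, hπ, LinearMap.toMatrix'_id]
  · have h1 : f ∘ₗ ι = μ • ι := by
      exact LinearMap.ext fun x => Module.End.mem_eigenspace_iff.1 (hιE x)
    have h2 := congrArg LinearMap.toMatrix' h1
    rw [LinearMap.toMatrix'_comp, LinearMap.toMatrix'_toLin', map_smul] at h2
    exact h2
  · intro M hM
    let F : (Fin n → K) →ₗ[K] (Fin n → K) := Matrix.toLin' M
    have hF : ∀ v ∈ E, F v ∈ E := by
      intro v hv
      rw [Module.End.mem_eigenspace_iff] at hv ⊢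
      change R.mulVec (M.mulVec v) = μ • M.mulVec v
      rw [Matrix.mulVec_mulVec, ← hM, ← Matrix.mulVec_mulVec]
      have : R.mulVec v = μ • v := hv
      rw [this, Matrix.mulVec_smul]
    have h1 : F ∘ₗ ι = ι ∘ₗ (π ∘ₗ F ∘ₗ ι) := by
      exact LinearMap.ext fun x => (hrange _ (hF _ (hιE x))).symm
    have h2 := congrArg LinearMap.toMatrix' h1
    rw [LinearMap.toMatrix'_comp, LinearMap.toMatrix'_comp, LinearMap.toMatrix'_comp,
      LinearMap.toMatrix'_comp, LinearMap.toMatrix'_toLin'] at h2
    rw [h2, Matrix.mul_assoc (LinearMap.toMatrix' π)]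

theorem x_proof : LIN.{u, v} := by
  intro G _ K _ a n ρ g μ w hw hR ha
  obtain ⟨k, I, P, hk, hPI, hRI, hcol⟩ := exists_block _ μ w hw hR
  have hkR : (1 : ℝ) ≤ k := by exact_mod_cast hk
  set r : G → Matrix (Fin n) (Fin n) K := fun x => ((ρ x : GL (Fin n) K) : Matrix _ _ K) with hr
  have hrmul : ∀ x y, r (x * y) = r x * r y := fun x y => by simp [hr]
  have hr1 : r 1 = 1 := by simp [hr]
  have hcomm : ∀ x, Commute x g → r x * I = I * (P * r x * I) := by
    intro x hx
    apply hcol
    rw [← hrmul, ← hrmul, hx.eq]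
  set A : G → Matrix (Fin k) (Fin k) K := fun x => P * r x * I with hA
  have hAmul : ∀ x y, Commute x g → Commute y g → A (x * y) = A x * A y := by
    intro x y hx hy
    simp only [hA]
    rw [hrmul, ← Matrix.mul_assoc P, Matrix.mul_assoc (P * r x) (r y) I, hcomm y hy,
      ← Matrix.mul_assoc (P * r x) I]
  have hA1 : A 1 = 1 := by simp only [hA]; rw [hr1, Matrix.mul_one, hPI]
  have hdet : ∀ x, Commute x g → (A x).det ≠ 0 := by
    intro x hx h0
    have h1 := hAmul x x⁻¹ hx hx.inv_left
    rw [mul_inv_cancel, hA1] at h1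
    have h2 := congrArg Matrix.det h1
    rw [Matrix.det_one, Matrix.det_mul, h0, zero_mul] at h2
    exact one_ne_zero h2
  have hμ0 : μ ≠ 0 := by
    intro h0
    have h1 : A g = μ • 1 := by
      simp only [hA]
      rw [Matrix.mul_assoc]
      change P * (r g * I) = _
      rw [show r g * I = μ • I from hRI, Matrix.mul_smul, hPI]
    have h2 := hdet g (Commute.refl g)
    rw [h1, h0, zero_smul] at h2
    have : Nonempty (Fin k) := ⟨⟨0, hk⟩⟩
    exact h2 Matrix.det_zero
  have hAg : (A g).det = μ ^ k := by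
    have h1 : A g = μ • 1 := by
      simp only [hA]
      rw [Matrix.mul_assoc]
      change P * (r g * I) = _
      rw [show r g * I = μ • I from hRI, Matrix.mul_smul, hPI]
    rw [h1, Matrix.det_smul, Matrix.det_one, mul_one, Fintype.card_fin]
  -- the length function
  set N : G → ℝ := fun x => max (nrm a (r x)) 1 with hN
  have hN1 : ∀ x, 1 ≤ N x := fun x => le_max_right _ _
  have hNmul : ∀ x y, N (x * y) ≤ N x * N y := by
    intro x y
    apply max_le
    · rw [hrmul]
      refine (nrm_mul a _ _).trans ?_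
      exact mul_le_mul (le_max_left _ _) (le_max_left _ _) (nrm_nonneg a _)
        (zero_le_one.trans (hN1 x))
    · nlinarith [hN1 x, hN1 y]
  have hlog0 : ∀ x, 0 ≤ Real.log (N x) := fun x => Real.log_nonneg (hN1 x)
  have hlogmul : ∀ x y, Real.log (N (x * y)) ≤ Real.log (N x) + Real.log (N y) := by
    intro x y
    rw [← Real.log_mul (by linarith [hN1 x]) (by linarith [hN1 y])]
    exact Real.log_le_log (by linarith [hN1 (x * y)]) (hNmul x y)
  set C : ℝ := max (nrm a P * nrm a I) 1 with hC
  have hC1 : 1 ≤ C := le_max_right _ _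
  have hbound : ∀ x, a (A x).det ≤ (Nat.factorial k : ℝ) * (C * N x) ^ k := by
    intro x
    have h1 : ∀ i j, a (A x i j) ≤ C * N x := by
      intro i j
      refine (entry_le a _ i j).trans ?_
      have h2 : nrm a (A x) ≤ nrm a P * nrm a (r x) * nrm a I :=
        (nrm_mul a _ _).trans
          (mul_le_mul_of_nonneg_right (nrm_mul a _ _) (nrm_nonneg a _))
      refine h2.trans ?_
      have h3 : nrm a P * nrm a (r x) * nrm a I = (nrm a P * nrm a I) * nrm a (r x) := by ring
      rw [h3]
      exact mul_le_mul (le_max_left _ _) (le_max_left _ _) (nrm_nonneg a _)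
        (zero_le_one.trans hC1)
    have h4 := Matrix.det_le h1
    rw [Fintype.card_fin, nsmul_eq_mul] at h4
    exact h4
  refine ⟨fun x => k * (Real.log (N x) + Real.log (N x⁻¹)), fun x => Real.log (a (A x).det),
    Real.log ((Nat.factorial k : ℝ) * C ^ k), ⟨?_, ?_, ?_⟩, ?_, ?_, ?_⟩
  · intro x
    have := hlog0 x
    have := hlog0 x⁻¹
    positivity
  · intro x
    simp only [inv_inv]
    ring
  · intro x y
    change (k : ℝ) * (Real.log (N (x * y)) + Real.log (N (x * y)⁻¹))
      ≤ k * (Real.log (N x) + Real.log (N x⁻¹)) + k * (Real.log (N y) + Real.log (N y⁻¹))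
    rw [_root_.mul_inv_rev]
    have h1 := hlogmul x y
    have h2 := hlogmul y⁻¹ x⁻¹
    have h3 : (0 : ℝ) ≤ k := by linarith
    nlinarith
  · intro x y hx hy
    change Real.log (a (A (x * y)).det) = _
    rw [hAmul x y hx hy, Matrix.det_mul, a.map_mul, Real.log_mul]
    · exact (a.pos (hdet x hx)).ne'
    · exact (a.pos (hdet y hy)).ne'
  · intro x hx
    change Real.log (a (A x).det) ≤ _
    have h1 := Real.log_le_log (a.pos (hdet x hx)) (hbound x)
    refine h1.trans ?_
    have hNx : (0 : ℝ) < N x := by linarith [hN1 x]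
    have hCp : (0 : ℝ) < C := by linarith
    have hf : (0 : ℝ) < Nat.factorial k := by exact_mod_cast Nat.factorial_pos k
    rw [mul_pow, ← mul_assoc, Real.log_mul (by positivity) (by positivity), Real.log_pow]
    have h2 : 0 ≤ (k : ℝ) * Real.log (N x⁻¹) := mul_nonneg (by linarith) (hlog0 _)
    have h3 : (k : ℝ) * (Real.log (N x) + Real.log (N x⁻¹))
        = k * Real.log (N x) + k * Real.log (N x⁻¹) := by ring
    change _ ≤ _ + (k : ℝ) * (Real.log (N x) + Real.log (N x⁻¹))
    rw [h3]
    linarith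
  · change Real.log (a (A g).det) ≠ 0
    rw [hAg, a.map_pow, Real.log_pow]
    have h1 : 0 < a μ := a.pos hμ0
    apply mul_ne_zero (by linarith)
    exact Real.log_ne_zero_of_pos_of_ne_one h1 ha

end Vale.Agent.P184.Lin
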