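import Vale.Agent.P184.Mods2
import Vale.Agent.P184.CharP

/-!
P184, module LINALL (helper15).
-/

namespace Vale.Agent.P184.LinAll

universe u v

open Polynomial Matrix

/-- an eigenvalue that is not a root of unity -/
theorem exists_root {F : Type v} [Field F] {n : ℕ} (A : Matrix (Fin n) (Fin n) F)
    (h : ∀ m : ℕ, 0 < m → ¬ IsNilpotent (A ^ m - 1)) :
    ∃ μ ∈ (A.map (algebraMap F (AlgebraicClosure F))).charpoly.roots,
      ∀ m : ℕ, 0 < m → μ ^ m ≠ 1 := by
  by_contra hcon
  push Not at hcon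
  obtain ⟨m, hm, hm1⟩ := CharP.exists_common _ hcon
  set M : Matrix (Fin n) (Fin n) (AlgebraicClosure F) :=
    A.map (algebraMap F (AlgebraicClosure F)) with hM
  have hdvd : M.charpoly ∣ (X ^ m - 1) ^ (M.charpoly.roots.card) := by
    have h1 : M.charpoly = (M.charpoly.roots.map fun a => X - C a).prod :=
      (IsAlgClosed.splits M.charpoly).eq_prod_roots_of_monic (M.charpoly_monic)
    have h2 : (M.charpoly.roots.map fun a => X - C a).prod ∣
        (M.charpoly.roots.map fun _ => (X ^ m - 1 : (AlgebraicClosure F)[X])).prod := by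
      refine Multiset.prod_dvd_prod_of_dvd _ _ ?_
      intro a ha
      rw [dvd_iff_isRoot]
      simp [IsRoot, hm1 a ha]
    rw [Multiset.map_const', Multiset.prod_replicate] at h2
    rw [← h1] at h2
    exact h2
  obtain ⟨q, hq⟩ := hdvd
  have h0 : (M ^ m - 1) ^ (M.charpoly.roots.card) = 0 := by
    have h3 := congrArg (aeval M) hq
    rw [map_mul, M.aeval_self_charpoly, zero_mul] at h3
    simpa using h3
  apply h m hm
  have hinj : Function.Injective
      ((algebraMap F (AlgebraicClosure F)).mapMatrix : Matrix (Fin n) (Fin n) F →+* _) := by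
    intro B B' hAB
    ext i j
    have := congrFun (congrFun hAB i) j
    exact (algebraMap F (AlgebraicClosure F)).injective this
  rw [← IsNilpotent.map_iff hinj]
  refine ⟨M.charpoly.roots.card, ?_⟩
  rw [map_sub, map_pow, map_one]
  exact h0

theorem exists_eigvec {F : Type v} [Field F] {n : ℕ} (M : Matrix (Fin n) (Fin n) F) (μ : F)
    (hμ : μ ∈ M.charpoly.roots) : ∃ w : Fin n → F, w ≠ 0 ∧ M.mulVec w = μ • w := by
  have hroot : M.charpoly.IsRoot μ := isRoot_of_mem_roots hμ
  have hdet : (Matrix.scalar (Fin n) μ - M).det = 0 := by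
    rw [← Matrix.eval_charpoly]
    exact hroot
  obtain ⟨w, hw0, hw⟩ := Matrix.exists_mulVec_eq_zero_iff.mpr hdet
  refine ⟨w, hw0, ?_⟩
  rw [Matrix.sub_mulVec, sub_eq_zero] at hw
  rw [← hw]
  ext i
  simp [Matrix.scalar_apply, Matrix.mulVec_diagonal]

theorem root_ne_zero {G : Type u} [Group G] {F Fb : Type v} [Field F] [Field Fb] (φ : F →+* Fb)
    {n : ℕ} (ρ : G →* GL (Fin n) F) (g : G) (μ : Fb)
    (hμ : μ ∈ (((ρ g : GL (Fin n) F) : Matrix (Fin n) (Fin n) F).map φ).charpoly.roots) :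
    μ ≠ 0 := by
  obtain ⟨w, hw0, hMw⟩ := exists_eigvec _ μ hμ
  intro h0
  rw [h0, zero_smul] at hMw
  apply hw0
  have hMinv : ((((ρ g)⁻¹ : GL (Fin n) F)) : Matrix (Fin n) (Fin n) F).map φ *
      (((ρ g : GL (Fin n) F) : Matrix (Fin n) (Fin n) F).map φ) = 1 := by
    have h1 : (((ρ g)⁻¹ : GL (Fin n) F) : Matrix (Fin n) (Fin n) F) *
        ((ρ g : GL (Fin n) F) : Matrix (Fin n) (Fin n) F) = 1 := by
      rw [← Units.val_mul, inv_mul_cancel, Units.val_one]
    have h2 := congrArg (φ.mapMatrix) h1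
    rw [map_mul, map_one] at h2
    exact h2
  calc w = (1 : Matrix (Fin n) (Fin n) Fb).mulVec w := by rw [Matrix.one_mulVec]
    _ = 0 := by rw [← hMinv, ← Matrix.mulVec_mulVec, hMw, Matrix.mulVec_zero]

/-- the criterion from an absolute value -/
theorem crit_of_abs (HL : LIN.{u, v}) {G : Type u} [Group G] {F Fb Ω : Type v} [Field F]
    [Field Fb] [Field Ω] (φ : F →+* Fb) {n : ℕ} (ρ : G →* GL (Fin n) F) (g : G) (μ : Fb)
    (hμ : μ ∈ (((ρ g : GL (Fin n) F) : Matrix (Fin n) (Fin n) F).map φ).charpoly.roots)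
    (a : AbsoluteValue Ω ℝ) (ι : Fb →+* Ω) (ha : a (ι μ) ≠ 1) : Crit g := by
  obtain ⟨w, hw0, hMw⟩ := exists_eigvec _ μ hμ
  refine HL G Ω a n ((Matrix.GeneralLinearGroup.map (ι.comp φ)).comp ρ) g (ι μ)
    (fun i => ι (w i)) ?_ ?_ ha
  · intro h0
    apply hw0
    ext i
    have := congrFun h0 i
    simpa using this
  · ext i
    have h1 := RingHom.map_mulVec ι
      (((ρ g : GL (Fin n) F) : Matrix (Fin n) (Fin n) F).map φ) w i
    rw [hMw] at h1
    simp only [Pi.smul_apply, smul_eq_mul, map_mul] at h1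
    simp only [Pi.smul_apply, smul_eq_mul]
    rw [h1]
    congr 1

/-- a representation of a countable group is defined over a countable subfield -/
theorem exists_descent {S : Type u} [Group S] [Countable S] {K : Type v} [Field K] {n : ℕ}
    (ρ : S →* GL (Fin n) K) : ∃ (K1 : Subfield K) (_ : Countable K1) (ρ1 : S →* GL (Fin n) K1),
      ∀ s, (((ρ1 s : GL (Fin n) K1) : Matrix (Fin n) (Fin n) K1).map K1.subtype) =
        ((ρ s : GL (Fin n) K) : Matrix (Fin n) (Fin n) K) := by
  let E : Set K := Set.range fun p : S × Fin n × Fin n =>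
    ((ρ p.1 : GL (Fin n) K) : Matrix (Fin n) (Fin n) K) p.2.1 p.2.2
  have hE : Countable E := Set.countable_range _
  let K1 : Subfield K := Subfield.closure E
  have hK1 : Countable K1 := by
    rw [← Cardinal.mk_le_aleph0_iff]
    refine (Subfield.cardinalMk_closure_le_max E).trans ?_
    exact max_le (Cardinal.mk_le_aleph0_iff.mpr hE) le_rfl
  have hmem : ∀ (s : S) (i j : Fin n), ((ρ s : GL (Fin n) K) : Matrix (Fin n) (Fin n) K) i j ∈ K1 :=
    fun s i j => Subfield.subset_closure ⟨(s, i, j), rfl⟩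
  have hinj : Function.Injective (K1.subtype.mapMatrix : Matrix (Fin n) (Fin n) K1 →+* _) := by
    intro B B' hAB
    ext i j
    have := congrFun (congrFun hAB i) j
    exact this
  let B : S → Matrix (Fin n) (Fin n) K1 :=
    fun s i j => ⟨((ρ s : GL (Fin n) K) : Matrix (Fin n) (Fin n) K) i j, hmem s i j⟩
  have hB : ∀ s, (K1.subtype.mapMatrix : Matrix (Fin n) (Fin n) K1 →+* _) (B s) =
      ((ρ s : GL (Fin n) K) : Matrix (Fin n) (Fin n) K) := fun s => rfl
  let f : S →* Matrix (Fin n) (Fin n) K1 :=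
    { toFun := B
      map_one' := by
        apply hinj
        rw [hB, map_one, map_one, Units.val_one]
      map_mul' := fun s t => by
        apply hinj
        rw [hB, map_mul, map_mul, hB, hB, Units.val_mul] }
  refine ⟨K1, hK1, f.toHomUnits, ?_⟩
  intro s
  ext i j
  rw [MonoidHom.coe_toHomUnits]
  rfl

theorem countable_closure (F : Type v) [Field F] [Countable F] :
    Countable (AlgebraicClosure F) := by
  rw [← Cardinal.mk_le_aleph0_iff]
  refine (Algebra.IsAlgebraic.cardinalMk_le_max F (AlgebraicClosure F)).trans ?_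
  exact max_le (Cardinal.mk_le_aleph0_iff.mpr inferInstance) le_rfl

/-- conjugate elements -/
theorem not_nilp_conj {G : Type u} [Group G] {K : Type v} [Field K] {n : ℕ}
    (ρ : G →* GL (Fin n) K) (g g1 : G) (hc : IsConj g g1) (m : ℕ)
    (h : IsNilpotent (((ρ g1 : GL (Fin n) K) : Matrix (Fin n) (Fin n) K) ^ m - 1)) :
    IsNilpotent (((ρ g : GL (Fin n) K) : Matrix (Fin n) (Fin n) K) ^ m - 1) := by
  obtain ⟨c, hc⟩ := isConj_iff.mp hc
  obtain ⟨k, hk⟩ := h
  refine ⟨k, ?_⟩
  have h1 : g = c⁻¹ * g1 * c := by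
    rw [← hc]
    group
  set C : GL (Fin n) K := ρ c with hC
  have h2 : ((ρ g : GL (Fin n) K) : Matrix (Fin n) (Fin n) K) ^ m - 1 =
      ((C⁻¹ : GL (Fin n) K) : Matrix (Fin n) (Fin n) K) *
        (((ρ g1 : GL (Fin n) K) : Matrix (Fin n) (Fin n) K) ^ m - 1) *
          ((C : GL (Fin n) K) : Matrix (Fin n) (Fin n) K) := by
    rw [← Units.val_pow_eq_pow_val, ← map_pow]
    have h3 : g ^ m = c⁻¹ * g1 ^ m * c := by
      rw [h1]
      have := (SemiconjBy.pow_right (n := m) (show SemiconjBy c⁻¹ g1 (c⁻¹ * g1 * c) from by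
        rw [SemiconjBy]; group))
      rw [SemiconjBy] at this
      calc (c⁻¹ * g1 * c) ^ m = (c⁻¹ * g1 * c) ^ m * c⁻¹ * c := by group
        _ = c⁻¹ * g1 ^ m * c := by rw [← this]
    rw [h3, map_mul, map_mul, map_inv, map_pow, Units.val_mul, Units.val_mul,
      Units.val_pow_eq_pow_val, mul_sub, sub_mul, mul_one, ← hC, ← Units.val_mul C⁻¹ C,
      inv_mul_cancel, Units.val_one]
  rw [h2]
  have h4 : ∀ (A : Matrix (Fin n) (Fin n) K) (k : ℕ),
      (((C⁻¹ : GL (Fin n) K) : Matrix (Fin n) (Fin n) K) * A *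
        ((C : GL (Fin n) K) : Matrix (Fin n) (Fin n) K)) ^ k =
      ((C⁻¹ : GL (Fin n) K) : Matrix (Fin n) (Fin n) K) * A ^ k *
        ((C : GL (Fin n) K) : Matrix (Fin n) (Fin n) K) := by
    intro A k
    have h5 : ((C : GL (Fin n) K) : Matrix (Fin n) (Fin n) K) *
        ((C⁻¹ : GL (Fin n) K) : Matrix (Fin n) (Fin n) K) = 1 := by
      rw [← Units.val_mul, mul_inv_cancel, Units.val_one]
    have h6 : ((C⁻¹ : GL (Fin n) K) : Matrix (Fin n) (Fin n) K) *
        ((C : GL (Fin n) K) : Matrix (Fin n) (Fin n) K) = 1 := by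
      rw [← Units.val_mul, inv_mul_cancel, Units.val_one]
    induction k with
    | zero => rw [pow_zero, pow_zero, mul_one, h6]
    | succ k ih =>
      rw [pow_succ, ih, pow_succ]
      calc ((C⁻¹ : GL (Fin n) K) : Matrix (Fin n) (Fin n) K) * A ^ k *
            ((C : GL (Fin n) K) : Matrix (Fin n) (Fin n) K) *
            (((C⁻¹ : GL (Fin n) K) : Matrix (Fin n) (Fin n) K) * A *
              ((C : GL (Fin n) K) : Matrix (Fin n) (Fin n) K))
          = ((C⁻¹ : GL (Fin n) K) : Matrix (Fin n) (Fin n) K) * A ^ k *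
            (((C : GL (Fin n) K) : Matrix (Fin n) (Fin n) K) *
            ((C⁻¹ : GL (Fin n) K) : Matrix (Fin n) (Fin n) K)) * A *
              ((C : GL (Fin n) K) : Matrix (Fin n) (Fin n) K) := by
            simp only [Matrix.mul_assoc]
        _ = _ := by
            rw [h5, mul_one]
            simp only [Matrix.mul_assoc]
  rw [h4, hk, mul_zero, zero_mul]

theorem linall_of (HC : CORE.{u}) (HL : LIN.{u, v}) (HA : ABSVAL.{v}) (HR : RESTR.{u})
    (HQ : ABSQ.{v}) : LINALL.{u, v} := by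
  intro G _ K _ n ρ g hg q e he
  rcases CharP.exists' K with hchar | ⟨p, hp, hchar⟩
  · -- characteristic zero
    refine HR G g ?_ q e he
    intro S hS g1 hc
    obtain ⟨K1, hK1, ρ1, hρ1⟩ := exists_descent (ρ.comp S.subtype)
    have hn : ∀ m : ℕ, 0 < m →
        ¬ IsNilpotent (((ρ1 g1 : GL (Fin n) K1) : Matrix (Fin n) (Fin n) K1) ^ m - 1) := by
      intro m hm hnil
      apply hg m hm
      apply not_nilp_conj ρ g (g1 : G) hc m
      have h1 := hnil.map (K1.subtype.mapMatrix : Matrix (Fin n) (Fin n) K1 →+* _)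
      rw [map_sub, map_pow, map_one] at h1
      have h2 : (K1.subtype.mapMatrix : Matrix (Fin n) (Fin n) K1 →+* _)
          ((ρ1 g1 : GL (Fin n) K1) : Matrix (Fin n) (Fin n) K1) =
          ((ρ (g1 : G) : GL (Fin n) K) : Matrix (Fin n) (Fin n) K) := hρ1 g1
      rw [h2] at h1
      exact h1
    obtain ⟨μ, hμ, hμ1⟩ := exists_root _ hn
    have : CharZero K1 := by
      refine ⟨fun a b hab => ?_⟩
      have := congrArg (fun x : K1 => (x : K)) hab
      simpa using this
    have : CharZero (AlgebraicClosure K1) :=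
      charZero_of_injective_algebraMap (algebraMap K1 (AlgebraicClosure K1)).injective
    have : Countable (AlgebraicClosure K1) := countable_closure K1
    obtain ⟨a, ha⟩ := HQ (AlgebraicClosure K1) μ
      (root_ne_zero (algebraMap K1 (AlgebraicClosure K1)) ρ1 g1 μ hμ) hμ1
    exact crit_of_abs HL (algebraMap K1 (AlgebraicClosure K1)) ρ1 g1 μ hμ a
      (RingHom.id (AlgebraicClosure K1)) ha
  · -- positive characteristic
    refine HC G g ?_ q e he
    obtain ⟨μ, hμ, hμ1⟩ := exists_root _ hg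
    have : CharP (AlgebraicClosure K) p :=
      charP_of_injective_algebraMap (algebraMap K (AlgebraicClosure K)).injective p
    obtain ⟨Ω, _, a, ι, ha⟩ := HA p (AlgebraicClosure K) μ
      (root_ne_zero (algebraMap K (AlgebraicClosure K)) ρ g μ hμ) hμ1
    exact crit_of_abs HL (algebraMap K (AlgebraicClosure K)) ρ g μ hμ a ι ha

end Vale.Agent.P184.LinAll
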