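import Vale.Agent.P184.Core
import Vale.Agent.P184.Ban
import Vale.Agent.P184.Coc
import Vale.Agent.P184.Amen
import Vale.Agent.P184.Lin
import Vale.Agent.P184.AbsVal
import Vale.Agent.P184.CharP
import Vale.Agent.P184.Cat

/-!
P184 (helper13): the assembled consequences of the modules.
-/

namespace Vale.Agent.P184

universe u v

theorem core : CORE.{u} := CR.core_proof Coc.coc_proof BN.ban_proof

theorem charp : CHARP.{u, v} := CharP.charp_of Lin.x_proof AbsVal.x_proof

theorem crit_of_hom {G : Type u} [Group G] (g : G) (L : G → ℝ) (hL : IsLength L)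
    (h : Subgroup.centralizer ({g} : Set G) → ℝ) (hh : ∀ k k', h (k * k') = h k + h k') (A : ℝ)
    (hA : ∀ k, |h k| ≤ A + L k)
    (hg : ∀ k : Subgroup.centralizer ({g} : Set G), (k : G) = g → h k ≠ 0) :
    Crit g := by
  classical
  have hmem : ∀ k, Commute k g → k ∈ Subgroup.centralizer ({g} : Set G) := fun k hk =>
    Subgroup.mem_centralizer_singleton_iff.mpr hk.eq
  refine ⟨L, fun k => if hk : Commute k g then h ⟨k, hmem k hk⟩ else 0, A, hL, ?_, ?_, ?_⟩
  · intro k k' hk hk'
    show (if hk : Commute (k * k') g then h ⟨k * k', hmem _ hk⟩ else 0) =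
      (if hk : Commute k g then h ⟨k, hmem k hk⟩ else 0) +
      (if hk : Commute k' g then h ⟨k', hmem k' hk⟩ else 0)
    rw [dif_pos hk, dif_pos hk', dif_pos (hk.mul_left hk'), ← hh]
    rfl
  · intro k hk
    show (if hk : Commute k g then h ⟨k, hmem k hk⟩ else 0) ≤ _
    rw [dif_pos hk]
    exact (le_abs_self _).trans (hA ⟨k, hmem k hk⟩)
  · show (if hk : Commute g g then h ⟨g, hmem g hk⟩ else 0) ≠ 0
    rw [dif_pos (Commute.refl g)]
    exact hg _ rfl

/-- If the torsion classes are finite in number and every element of infinite order satisfies the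
criterion, then Q1 holds. -/
theorem q1_of_crit (G : Type u) [Group G]
    (hfin : FinTors G)
    (hcrit : ∀ g : G, ¬ IsOfFinOrder g → Crit g) : BassQ1 G := by
  intro q e he
  refine ⟨_, hfin, fun C hC => hC, ?_⟩
  intro C hC
  obtain ⟨g, rfl⟩ := ConjClasses.exists_rep C
  have hg : ¬ IsOfFinOrder g := fun h => hC ⟨g, h, rfl⟩
  exact core G g (hcrit g hg) q e he

end Vale.Agent.P184
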