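import Vale.Agent.P184.Mods2

/-!
P184 (helper13), N1: reduction to countable subgroups.
-/

namespace Vale.Agent.P184.RS

open Vale.Agent.P184

universe u v

/-- The subgroup generated by a countable set is countable. -/
theorem countable_closure {G : Type u} [Group G] (T : Set G) (hT : T.Countable) :
    Countable (Subgroup.closure T) := by
  have : Countable T := hT
  have h1 : (FreeGroup.lift (fun x : T => (x : G))).range = Subgroup.closure T := by
    rw [FreeGroup.range_lift_eq_closure]
    simp
  have h2 : Countable (FreeGroup T) := by
    unfold FreeGroup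
    infer_instance
  rw [← h1]
  exact (MonoidHom.rangeRestrict_surjective _).countable

variable {G : Type u} [Group G] {q : ℕ} {e : Fin q → Fin q → G → ℂ}

/-- The restriction of a matrix to a subgroup. -/
def res (S : Subgroup G) (e : Fin q → Fin q → G → ℂ) : Fin q → Fin q → S → ℂ :=
  fun i j x => e i j (x : G)

theorem res_idem (S : Subgroup G) (he : IsIdem e) (hS : ∀ i j x, e i j x ≠ 0 → x ∈ S) :
    IsIdem (res S e) := by
  constructor
  · intro i j
    exact (he.summable i j).comp_injective Subtype.val_injective
  · intro i j g
    have h := he.idem i j (g : G)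
    unfold res
    rw [← h]
    refine Finset.sum_congr rfl fun k _ => ?_
    have h2 := (Subtype.val_injective (p := fun x => x ∈ S)).tsum_eq
      (f := fun h : G => e i k h * e k j (h⁻¹ * (g : G))) (by
        intro x hx
        rw [Subtype.range_coe_subtype]
        refine hS i k x ?_
        intro h0
        apply hx
        simp [h0])
    rw [← h2]
    rfl

theorem tau_res (S : Subgroup G) (he : IsIdem e) (hS : ∀ i j x, e i j x ≠ 0 → x ∈ S) (g : G)
    (h : ∀ g1 : S, IsConj g (g1 : G) → tau (res S e) (ConjClasses.mk g1) = 0) :
    tau e (ConjClasses.mk g) = 0 := by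
  classical
  unfold tau
  set f : G → ℂ := fun x => ∑ i, e i i x with hf
  have hfs : Summable f := by
    have : ∀ i, Summable fun x => e i i x := fun i => (he.summable i i).of_norm
    exact summable_sum fun i _ => this i
  have hsupp : ∀ x, f x ≠ 0 → x ∈ S := by
    intro x hx
    obtain ⟨i, _, hi⟩ := Finset.exists_ne_zero_of_sum_ne_zero hx
    exact hS i i x hi
  have e1 : ∑' x : (ConjClasses.mk g).carrier, f (x : G)
      = ∑' x : G, (ConjClasses.mk g).carrier.indicator f x := tsum_subtype _ f
  have e2 : ∑' x : G, (ConjClasses.mk g).carrier.indicator f x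
      = ∑' x : S, (ConjClasses.mk g).carrier.indicator f (x : G) := by
    refine ((Subtype.val_injective (p := fun x => x ∈ S)).tsum_eq ?_).symm
    intro x hx
    rw [Subtype.range_coe_subtype]
    refine hsupp x ?_
    intro h0
    apply hx
    by_cases hxC : x ∈ (ConjClasses.mk g).carrier
    · rw [Set.indicator_of_mem hxC, h0]
    · rw [Set.indicator_of_notMem hxC]
  set F : S → ℂ := fun x => (ConjClasses.mk g).carrier.indicator f (x : G) with hF
  have hFs : Summable F := (hfs.indicator _).comp_injective Subtype.val_injective
  have e3 : ∑' x : S, F x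
      = ∑' y : (Σ c : ConjClasses S, {x : S // ConjClasses.mk x = c}), F y.2 :=
    ((Equiv.sigmaFiberEquiv (ConjClasses.mk : S → ConjClasses S)).tsum_eq F).symm
  have hFs2 : Summable fun y : (Σ c : ConjClasses S, {x : S // ConjClasses.mk x = c}) =>
      F y.2 :=
    (Equiv.sigmaFiberEquiv (ConjClasses.mk : S → ConjClasses S)).summable_iff.2 hFs
  rw [e1, e2, e3, hFs2.tsum_sigma]
  have h0 : ∀ c : ConjClasses S, ∑' x : {x : S // ConjClasses.mk x = c}, F x = 0 := by
    intro c
    obtain ⟨g1, rfl⟩ := ConjClasses.exists_rep c
    by_cases hg : IsConj g (g1 : G)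
    · have h1 := h g1 hg
      unfold tau at h1
      have h3 : ∀ x : {x : S // ConjClasses.mk x = ConjClasses.mk g1}, F x
          = ∑ i, res S e i i x := by
        intro x
        have hx : ((x : S) : G) ∈ (ConjClasses.mk g).carrier := by
          rw [ConjClasses.mem_carrier_iff_mk_eq, ConjClasses.mk_eq_mk_iff_isConj]
          have h4 : IsConj (x : S) g1 := ConjClasses.mk_eq_mk_iff_isConj.1 x.2
          have h5 : IsConj ((x : S) : G) (g1 : G) := S.subtype.map_isConj h4
          exact h5.trans hg.symm
        rw [hF]
        show (ConjClasses.mk g).carrier.indicator f ((x : S) : G) = _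
        rw [Set.indicator_of_mem hx]
        rfl
      rw [tsum_congr h3]
      have h6 : (ConjClasses.mk g1).carrier = {x : S | ConjClasses.mk x = ConjClasses.mk g1} := by
        ext x
        exact ConjClasses.mem_carrier_iff_mk_eq
      have h7 : ∑' x : {x : S | ConjClasses.mk x = ConjClasses.mk g1}, ∑ i, res S e i i (x : S)
          = 0 := by
        rw [← h6]
        exact h1
      exact h7
    · have h3 : ∀ x : {x : S // ConjClasses.mk x = ConjClasses.mk g1}, F x = 0 := by
        intro x
        have hx : ((x : S) : G) ∉ (ConjClasses.mk g).carrier := by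
          rw [ConjClasses.mem_carrier_iff_mk_eq, ConjClasses.mk_eq_mk_iff_isConj]
          intro h5
          have h4 : IsConj (x : S) g1 := ConjClasses.mk_eq_mk_iff_isConj.1 x.2
          exact hg (h5.symm.trans (S.subtype.map_isConj h4))
        exact Set.indicator_of_notMem hx f
      rw [tsum_congr h3]
      exact tsum_zero
  rw [tsum_congr h0]
  exact tsum_zero

theorem restr_proof (hC : CORE.{u}) : RESTR.{u} := by
  intro G _ g hg q e he
  set T : Set G := ⋃ i, ⋃ j, Function.support (e i j) with hT
  have hTc : T.Countable := by
    refine Set.countable_iUnion fun i => Set.countable_iUnion fun j => ?_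
    exact ((he.summable i j).of_norm).countable_support
  have hS : ∀ i j x, e i j x ≠ 0 → x ∈ Subgroup.closure T := by
    intro i j x hx
    apply Subgroup.subset_closure
    exact Set.mem_iUnion.2 ⟨i, Set.mem_iUnion.2 ⟨j, hx⟩⟩
  have hcount := countable_closure T hTc
  refine tau_res (Subgroup.closure T) he hS g ?_
  intro g1 h1
  exact hC (Subgroup.closure T) g1 (hg (Subgroup.closure T) hcount g1 h1) q _
    (res_idem _ he hS)

end Vale.Agent.P184.RS
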