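import Vale.Agent.P184.Main
import Vale.Agent.P184.LinAll
import Vale.Agent.P184.AbsQ
import Vale.Agent.P184.Restr

/-!
P184 (helper13): all linear groups.
-/

namespace Vale.Agent.P184

universe u v

/-- The coefficient at the class of `g` of the trace of every idempotent matrix over `ℓ¹(G)`
vanishes. -/
def Vanish {G : Type*} [Group G] (g : G) : Prop :=
  ∀ (q : ℕ) (e : Fin q → Fin q → G → ℂ), IsIdem e → tau e (ConjClasses.mk g) = 0

theorem linall : LINALL.{u, v} :=
  LinAll.linall_of core Lin.x_proof AbsVal.x_proof (RS.restr_proof core) AQ.absq_proof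

/-- In positive characteristic a matrix with a unipotent power has a power equal to one. -/
theorem pow_of_nilp {p : ℕ} [Fact p.Prime] {K : Type v} [Field K] [CharP K p] {n : ℕ}
    (M : Matrix (Fin n) (Fin n) K) (m : ℕ) (hm : 0 < m) (h : IsNilpotent (M ^ m - 1)) :
    ∃ k : ℕ, 0 < k ∧ M ^ k = 1 := by
  rcases Nat.eq_zero_or_pos n with rfl | hn
  · exact ⟨1, one_pos, Subsingleton.elim _ _⟩
  · have : Nonempty (Fin n) := ⟨⟨0, hn⟩⟩
    have hc : CharP (Matrix (Fin n) (Fin n) K) p := inferInstance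
    obtain ⟨k, hk⟩ := h
    have hp : 1 < p := (Fact.out : p.Prime).one_lt
    have hk2 : k ≤ p ^ k := (Nat.lt_pow_self hp).le
    refine ⟨m * p ^ k, Nat.mul_pos hm (pow_pos (by omega) k), ?_⟩
    have h1 : (M ^ m - 1) ^ (p ^ k) = 0 := pow_eq_zero_of_le hk2 hk
    have h2 : (M ^ m - 1) ^ (p ^ k) = (M ^ m) ^ (p ^ k) - 1 ^ (p ^ k) :=
      sub_pow_char_pow_of_commute p k (Commute.one_right _)
    rw [h2, one_pow, ← pow_mul] at h1
    exact sub_eq_zero.mp h1

/-- Linear groups all of whose unipotent elements have finite order. -/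
theorem q1_linear (G : Type u) [Group G] (K : Type v) [Field K] (n : ℕ) (ρ : G →* GL (Fin n) K)
    (hu : ∀ g : G, IsNilpotent (((ρ g : GL (Fin n) K) : Matrix (Fin n) (Fin n) K) - 1) →
      IsOfFinOrder g) (hfin : FinTors G) : BassQ1 G := by
  intro q e he
  refine ⟨_, hfin, fun C hC => hC, ?_⟩
  intro C hC
  obtain ⟨g, rfl⟩ := ConjClasses.exists_rep C
  have hg : ¬ IsOfFinOrder g := fun h => hC ⟨g, h, rfl⟩
  refine linall G K n ρ g (fun m hm hnil => hg ?_) q e he
  have h1 : IsOfFinOrder (g ^ m) := hu (g ^ m) (by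
    rw [map_pow, Units.val_pow_eq_pow_val]; exact hnil)
  rwa [isOfFinOrder_pow, or_iff_left hm.ne'] at h1

/-- Elements of infinite order in the unit group of a finite-dimensional division algebra. -/
theorem division {G : Type u} [Group G] {K : Type v} [Field K] {D : Type v} [DivisionRing D]
    [Algebra K D] [FiniteDimensional K D] (ρ : G →* Dˣ) (g : G) (hg : ¬ IsOfFinOrder (ρ g)) :
    ∀ (q : ℕ) (e : Fin q → Fin q → G → ℂ), IsIdem e → tau e (ConjClasses.mk g) = 0 := by
  classical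
  let b := Module.finBasis K D
  let φ : D →ₐ[K] Matrix _ _ K := Algebra.leftMulMatrix b
  have hφ : Function.Injective φ := Algebra.leftMulMatrix_injective b
  let σ : G →* GL (Fin (Module.finrank K D)) K := (Units.map (φ : D →* _)).comp ρ
  refine linall G K _ σ g ?_
  intro m hm hnil
  apply hg
  obtain ⟨k, hk⟩ := hnil
  have h1 : ((σ g : GL (Fin (Module.finrank K D)) K) : Matrix _ _ K) = φ ((ρ g : Dˣ) : D) := rfl
  rw [h1] at hk
  have h2 : φ ((((ρ g : Dˣ) : D) ^ m - 1) ^ k) = 0 := by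
    rw [map_pow, map_sub, map_pow, map_one]
    exact hk
  have h3 : (((ρ g : Dˣ) : D) ^ m - 1) ^ k = 0 := hφ (by rw [h2, map_zero])
  have h4 : ((ρ g : Dˣ) : D) ^ m = 1 := by
    rcases Nat.eq_zero_or_pos k with rfl | hkpos
    · rw [pow_zero] at h3
      exact absurd h3 one_ne_zero
    · exact sub_eq_zero.mp (pow_eq_zero_iff hkpos.ne' |>.mp h3)
  rw [isOfFinOrder_iff_pow_eq_one]
  exact ⟨m, hm, Units.ext (by rw [Units.val_pow_eq_pow_val, h4, Units.val_one])⟩

end Vale.Agent.P184
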