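import Vale.Agent.P184.Defs

/-!
Interface for P184 (helper13).  Each `def X : Prop` is a module; prove
`theorem x_proof (deps) : X` in its own file, in the namespace `Vale.Agent.P184.XX`.
-/

namespace Vale.Agent.P184

universe u v

/-- M1. McShane extension. -/
def MCSHANE : Prop := ∀ (G : Type u) [Group G] (g : G) (L h : G → ℝ) (A : ℝ), IsLength L →
  (∀ k k', Commute k g → Commute k' g → h (k * k') = h k + h k') →
  (∀ k, Commute k g → h k ≤ A + L k) →
  ∃ c : G → ℝ, (∀ p k, Commute k g → c (p * k) = c p + h k) ∧ ∀ x p, |c (x * p) - c p| ≤ L x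

/-- M2. The cocycle on the conjugacy class (uses MCSHANE). -/
def COC : Prop := ∀ (G : Type u) [Group G] (g : G) (L h : G → ℝ) (A : ℝ), IsLength L →
  (∀ k k', Commute k g → Commute k' g → h (k * k') = h k + h k') →
  (∀ k, Commute k g → h k ≤ A + L k) →
  ∃ b : G → G → ℝ, (∀ x x' y, b (x * x') y = b x y + b x' (x⁻¹ * y * x)) ∧
    (∀ x y, |b x y| ≤ L x) ∧ ∀ y, IsConj g y → b y y = h g

/-- M3. The analytic part: homotopy invariance in a Banach algebra. -/
def BAN : Prop := ∀ (G : Type u) [Group G] (g : G) (L : G → ℝ) (b : G → G → ℝ) (κ : ℝ),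
  (∀ x x' y, b (x * x') y = b x y + b x' (x⁻¹ * y * x)) →
  (∀ x y, |b x y| ≤ L x) → (∀ y, IsConj g y → b y y = κ) → κ ≠ 0 →
  ∀ (q : ℕ) (e : Fin q → Fin q → G → ℂ), IsIdem e → tau e (ConjClasses.mk g) = 0

/-- M4. The criterion (uses COC, BAN). -/
def CORE : Prop := ∀ (G : Type u) [Group G] (g : G), Crit g →
  ∀ (q : ℕ) (e : Fin q → Fin q → G → ℂ), IsIdem e → tau e (ConjClasses.mk g) = 0

/-- M5. Elements of positive stable length with amenable centralizer. -/
def AMEN : Prop := ∀ (G : Type u) [Group G] (g : G) (L : G → ℝ), IsLength L →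
  (∃ c : ℝ, 0 < c ∧ ∀ n : ℕ, c * n ≤ L (g ^ n)) →
  IsAmenable (Subgroup.centralizer ({g} : Set G)) → Crit g

/-- M6. Linear groups over fields with an absolute value. -/
def LIN : Prop := ∀ (G : Type u) [Group G] (K : Type v) [Field K] (a : AbsoluteValue K ℝ)
  (n : ℕ) (ρ : G →* GL (Fin n) K) (g : G) (μ : K) (w : Fin n → K), w ≠ 0 →
  ((ρ g : GL (Fin n) K) : Matrix (Fin n) (Fin n) K).mulVec w = μ • w → a μ ≠ 1 → Crit g

/-- M7. An absolute value on an algebraically closed overfield, of given value at a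
transcendental element. -/
def ABSVAL : Prop := ∀ (p : ℕ) [Fact p.Prime] (K : Type v) [Field K] [CharP K p] (μ : K),
  μ ≠ 0 → (∀ m : ℕ, 0 < m → μ ^ m ≠ 1) →
  ∃ (Ω : Type v) (_ : Field Ω) (a : AbsoluteValue Ω ℝ) (ι : K →+* Ω), a (ι μ) ≠ 1

/-- M8. Linear groups in positive characteristic (uses LIN, ABSVAL). -/
def CHARP : Prop := ∀ (G : Type u) [Group G] (p : ℕ) [Fact p.Prime] (K : Type v) [Field K]
  [CharP K p] (n : ℕ) (ρ : G →* GL (Fin n) K) (g : G), (∀ m : ℕ, 0 < m → ρ g ^ m ≠ 1) → Crit g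

/-- M9. Isometric actions on CAT(0) spaces. -/
def CAT : Prop := ∀ (G : Type u) [Group G] (X : Type v) [MetricSpace X], CN X →
  ∀ (ρ : G → X → X), (∀ x y p, ρ (x * y) p = ρ x (ρ y p)) → (∀ p, ρ 1 p = p) →
  (∀ x p p', dist (ρ x p) (ρ x p') = dist p p') →
  ∀ (g : G) (o : X), (∃ c : ℝ, 0 < c ∧ ∀ n : ℕ, c * n ≤ dist (ρ (g ^ n) o) o) → Crit g

end Vale.Agent.P184
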