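import Vale.Agent.P184.Mods

/-!
Interface for P184, second part (helper13): all linear groups, any characteristic, all classes of
elements that are not quasi-unipotent.
-/

namespace Vale.Agent.P184

universe u v

/-- N1. Reduction to countable subgroups (uses CORE): the entries of `e` have countable support,
which generates a countable subgroup `S`; `e` restricts to an idempotent over `ℓ¹(S)` and the
class of `g` meets `S` in a union of classes of `S`. -/
def RESTR : Prop := ∀ (G : Type u) [Group G] (g : G),
  (∀ S : Subgroup G, Countable S → ∀ g1 : S, IsConj g (g1 : G) → Crit g1) →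
  ∀ (q : ℕ) (e : Fin q → Fin q → G → ℂ), IsIdem e → tau e (ConjClasses.mk g) = 0

/-- N2. Countable fields of characteristic zero have an absolute value which is different from 1
at a given nonzero element that is not a root of unity. -/
def ABSQ : Prop := ∀ (K : Type v) [Field K] [CharZero K] [Countable K] (μ : K),
  μ ≠ 0 → (∀ m : ℕ, 0 < m → μ ^ m ≠ 1) → ∃ a : AbsoluteValue K ℝ, a μ ≠ 1

/-- N3. All linear groups (uses CORE, LIN, ABSVAL, RESTR, ABSQ). -/
def LINALL : Prop := ∀ (G : Type u) [Group G] (K : Type v) [Field K] (n : ℕ)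
  (ρ : G →* GL (Fin n) K) (g : G),
  (∀ m : ℕ, 0 < m → ¬ IsNilpotent (((ρ g : GL (Fin n) K) : Matrix (Fin n) (Fin n) K) ^ m - 1)) →
  ∀ (q : ℕ) (e : Fin q → Fin q → G → ℂ), IsIdem e → tau e (ConjClasses.mk g) = 0

end Vale.Agent.P184
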